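/-
Tingley's problem for `Z ⊕_p W`, `1 < p < ∞`, `Z`, `W` arbitrary: splitting lemmas in the `p`-sum and the
submodule form of the cofacial theorem.
-/
import Vale.Agent.Lib.P084.LSum.Final
import Vale.Agent.Lib.P084.LpSum.Def

set_option linter.unusedSectionVars false

namespace Vale.Agent.Lib.P084.LpGen

open Vale.Agent.Lib.P084.UC Vale.Agent.Lib.P084.Inf
open Vale.Agent.Lib.P084.LpSum (IsLpSummand)
open Metric

variable {X Y : Type*} [NormedAddCommGroup X] [NormedSpace ℝ X] [NormedAddCommGroup Y]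
  [NormedSpace ℝ Y]

theorem rpow_eq_of_eq {p a b : ℝ} (hp : 0 < p) (ha : 0 ≤ a) (hb : 0 ≤ b) (h : a ^ p = b ^ p) : a = b :=
  (Real.rpow_left_inj ha hb hp.ne').1 h

/-- Equality in the triangle inequality of `ℓ_p ^ 2`. -/
theorem split_real {p : ℝ} (hp : 1 < p) {a b c d A B q : ℝ} (ha : 0 ≤ a) (hb : 0 ≤ b) (hc : 0 ≤ c)
    (hd : 0 ≤ d) (hA0 : 0 ≤ A) (hB0 : 0 ≤ B) (hq : 0 ≤ q)
    (h1 : a ^ p + b ^ p = q ^ p) (h2 : c ^ p + d ^ p = q ^ p) (hA : A ≤ a + c) (hB : B ≤ b + d)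
    (h3 : A ^ p + B ^ p = (2 * q) ^ p) : a = c ∧ A = a + c := by
  have hp0 : 0 < p := by linarith
  have hconv := strictConvexOn_rpow hp
  have hmid : ∀ x y : ℝ, 0 ≤ x → 0 ≤ y → ((x + y) / 2) ^ p ≤ (x ^ p + y ^ p) / 2 := by
    intro x y hx hy
    have := hconv.convexOn.2 (Set.mem_Ici.2 hx) (Set.mem_Ici.2 hy) (by norm_num : (0 : ℝ) ≤ 1 / 2)
      (by norm_num : (0 : ℝ) ≤ 1 / 2) (by norm_num)
    simp only [smul_eq_mul] at this
    have e : 1 / 2 * x + 1 / 2 * y = (x + y) / 2 := by ring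
    rw [e] at this
    linarith
  have h2p : (0 : ℝ) < 2 ^ p := by positivity
  have hscale : ∀ x : ℝ, 0 ≤ x → (2 * x) ^ p = 2 ^ p * x ^ p := fun x hx =>
    Real.mul_rpow (by norm_num) hx
  have hu : 0 ≤ (a + c) / 2 := by positivity
  have hv : 0 ≤ (b + d) / 2 := by positivity
  have e1 : a + c = 2 * ((a + c) / 2) := by ring
  have e2 : b + d = 2 * ((b + d) / 2) := by ring
  have hAle : A ^ p ≤ 2 ^ p * ((a + c) / 2) ^ p := by
    rw [← hscale _ hu, ← e1]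
    exact Real.rpow_le_rpow hA0 hA hp0.le
  have hBle : B ^ p ≤ 2 ^ p * ((b + d) / 2) ^ p := by
    rw [← hscale _ hv, ← e2]
    exact Real.rpow_le_rpow hB0 hB hp0.le
  rw [hscale q hq] at h3
  have hm1 := hmid a c ha hc
  have hm2 := hmid b d hb hd
  have h4 : q ^ p ≤ ((a + c) / 2) ^ p + ((b + d) / 2) ^ p := by
    have : 2 ^ p * q ^ p ≤ 2 ^ p * (((a + c) / 2) ^ p + ((b + d) / 2) ^ p) := by
      rw [mul_add]; linarith
    exact le_of_mul_le_mul_left this h2p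
  have hac : a = c := by
    by_contra hne
    have := hconv.2 (Set.mem_Ici.2 ha) (Set.mem_Ici.2 hc) hne (by norm_num : (0 : ℝ) < 1 / 2)
      (by norm_num : (0 : ℝ) < 1 / 2) (by norm_num)
    simp only [smul_eq_mul] at this
    have e : 1 / 2 * a + 1 / 2 * c = (a + c) / 2 := by ring
    rw [e] at this
    linarith
  refine ⟨hac, ?_⟩
  have hle : ((a + c) / 2) ^ p + ((b + d) / 2) ^ p ≤ q ^ p := by linarith
  have hAeq : A ^ p = 2 ^ p * ((a + c) / 2) ^ p := by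
    have h5 : 2 ^ p * (((a + c) / 2) ^ p + ((b + d) / 2) ^ p) ≤ 2 ^ p * q ^ p :=
      mul_le_mul_of_nonneg_left hle h2p.le
    rw [mul_add] at h5
    linarith
  rw [← hscale _ hu, ← e1] at hAeq
  exact rpow_eq_of_eq hp0 hA0 (by positivity) hAeq

/-- Unit vectors: `‖α a + β b‖ = α + β` gives `‖a + b‖ = 2`. -/
theorem cofacial_of_comb {a b : X} (ha : ‖a‖ = 1) (hb : ‖b‖ = 1) {α β : ℝ} (hα : 0 < α) (hβ : 0 < β)
    (h : ‖α • a + β • b‖ = α + β) : ‖a + b‖ = 2 := by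
  apply le_antisymm
  · have := norm_add_le a b
    rw [ha, hb] at this
    linarith
  · rcases le_total α β with hab | hab
    · have e : α • a + β • b = α • (a + b) + (β - α) • b := by module
      have h1 := norm_add_le (α • (a + b)) ((β - α) • b)
      rw [← e, h, norm_smul, norm_smul, hb, Real.norm_of_nonneg hα.le,
        Real.norm_of_nonneg (by linarith : 0 ≤ β - α), mul_one] at h1
      have h2 : α * 2 ≤ α * ‖a + b‖ := by linarith
      exact le_of_mul_le_mul_left h2 hα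
    · have e : α • a + β • b = β • (a + b) + (α - β) • a := by module
      have h1 := norm_add_le (β • (a + b)) ((α - β) • a)
      rw [← e, h, norm_smul, norm_smul, ha, Real.norm_of_nonneg hβ.le,
        Real.norm_of_nonneg (by linarith : 0 ≤ α - β), mul_one] at h1
      have h2 : β * 2 ≤ β * ‖a + b‖ := by linarith
      exact le_of_mul_le_mul_left h2 hβ

section Proj

variable {p : ℝ} {P : X →L[ℝ] X}

/-- The complementary projection. -/
theorem compl (H : IsLpSummand p P) : IsLpSummand p (1 - P) := by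
  refine ⟨fun x => ?_, fun x => ?_⟩
  · simp only [ContinuousLinearMap.sub_apply, ContinuousLinearMap.one_apply, map_sub, H.idem]
    abel
  · have e : x - (1 - P) x = P x := by
      simp only [ContinuousLinearMap.sub_apply, ContinuousLinearMap.one_apply]
      abel
    rw [e, H.pyth x, add_comm]
    simp only [ContinuousLinearMap.sub_apply, ContinuousLinearMap.one_apply]

theorem norm_P_le (H : IsLpSummand p P) (hp : 1 < p) (x : X) : ‖P x‖ ≤ ‖x‖ := by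
  have hp0 : 0 < p := by linarith
  have h1 := H.pyth x
  have h2 : 0 ≤ ‖x - P x‖ ^ p := by positivity
  have h3 : ‖P x‖ ^ p ≤ ‖x‖ ^ p := by linarith
  exact (Real.rpow_le_rpow_iff (norm_nonneg _) (norm_nonneg _) hp0).1 h3

theorem pyth2 (H : IsLpSummand p P) {z w : X} (hz : P z = z) (hw : P w = 0) :
    ‖z + w‖ ^ p = ‖w‖ ^ p + ‖z‖ ^ p := by
  have h := H.pyth (z + w)
  have e1 : P (z + w) = z := by rw [map_add, hz, hw, add_zero]
  have e2 : z + w - z = w := by abel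
  rw [e1, e2] at h
  exact h

/-- Equal norms and `‖v + v'‖ = 2 ‖v‖` split. -/
theorem split (H : IsLpSummand p P) (hp : 1 < p) {v v' : X} (h : ‖v‖ = ‖v'‖)
    (h2 : ‖v + v'‖ = 2 * ‖v‖) : ‖P v‖ = ‖P v'‖ ∧ ‖P (v + v')‖ = ‖P v‖ + ‖P v'‖ := by
  refine split_real hp (b := ‖v - P v‖) (d := ‖v' - P v'‖) (B := ‖v + v' - P (v + v')‖) (q := ‖v‖)
    (norm_nonneg _) (norm_nonneg _) (norm_nonneg _) (norm_nonneg _) (norm_nonneg _) (norm_nonneg _)
    (norm_nonneg _) ?_ ?_ ?_ ?_ ?_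
  · rw [H.pyth v, add_comm]
  · rw [h, H.pyth v', add_comm]
  · rw [map_add]; exact norm_add_le _ _
  · have e : v + v' - P (v + v') = (v - P v) + (v' - P v') := by rw [map_add]; abel
    rw [e]; exact norm_add_le _ _
  · rw [← h2, H.pyth (v + v'), add_comm]

/-- A flat direction splits. -/
theorem flat_part (H : IsLpSummand p P) (hp : 1 < p) {a ε : X} (h1 : ‖a + ε‖ = ‖a‖)
    (h2 : ‖a - ε‖ = ‖a‖) : ‖P (a - ε)‖ = ‖P a‖ := by
  have e : a + ε + (a - ε) = (2 : ℝ) • a := by module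
  have h3 : ‖a + ε + (a - ε)‖ = 2 * ‖a + ε‖ := by
    rw [e, norm_smul, h1]; simp
  have h4 := split H hp (h1.trans h2.symm) h3
  rw [e, map_smul, norm_smul, h4.1] at h4
  have h5 := h4.2
  simp only [Real.norm_eq_abs, abs_two] at h5
  have h6 : ‖P a‖ = ‖P (a - ε)‖ := by linarith
  exact h6.symm

end Proj

/-- The subspace of fixed vectors. -/
def Fix (P : X →L[ℝ] X) : Submodule ℝ X where
  carrier := {v | P v = v}
  add_mem' := by
    intro a b ha hb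
    simp only [Set.mem_setOf_eq] at ha hb ⊢
    rw [map_add, ha, hb]
  zero_mem' := by simp
  smul_mem' := by
    intro c a ha
    simp only [Set.mem_setOf_eq] at ha ⊢
    rw [map_smul, ha]

theorem mem_Fix {P : X →L[ℝ] X} {v : X} : v ∈ Fix P ↔ P v = v := Iff.rfl

/-- The cofacial theorem on a subspace. -/
theorem eq_of_cofacial_on (S : Submodule ℝ X) {Ξ : X → X}
    (h0 : ∀ x ∈ S, ‖x‖ = 1 → Ξ x ∈ S) (h1 : ∀ x ∈ S, ‖x‖ = 1 → ‖Ξ x‖ = 1)
    (h2 : ∀ x ∈ S, ∀ y ∈ S, ‖x‖ = 1 → ‖y‖ = 1 → ‖Ξ x - Ξ y‖ ≤ ‖x - y‖)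
    (h3 : ∀ x ∈ S, ‖x‖ = 1 → ‖x + Ξ x‖ = 2) {y : X} (hy : y ∈ S) (hy1 : ‖y‖ = 1) : Ξ y = y := by
  classical
  let Ξ' : S → S := fun a => if h : ‖(a : X)‖ = 1 then ⟨Ξ a, h0 a a.2 h⟩ else a
  have hΞ' : ∀ a : S, ‖a‖ = 1 → ((Ξ' a : S) : X) = Ξ a := by
    intro a ha
    have ha' : ‖(a : X)‖ = 1 := ha
    simp only [Ξ', dif_pos ha']
  have key := eq_self_of_cofacial (X := S) (Ξ := Ξ') (y := ⟨y, hy⟩)
    (fun a ha => by
      have ha' : ‖(a : X)‖ = 1 := ha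
      show ‖((Ξ' a : S) : X)‖ = 1
      rw [hΞ' a ha]
      exact h1 a a.2 ha')
    (fun a b ha hb => by
      have ha' : ‖(a : X)‖ = 1 := ha
      have hb' : ‖(b : X)‖ = 1 := hb
      show ‖((Ξ' a : S) : X) - ((Ξ' b : S) : X)‖ ≤ ‖(a : X) - (b : X)‖
      rw [hΞ' a ha, hΞ' b hb]
      exact h2 a a.2 b b.2 ha' hb')
    (fun a ha => by
      have ha' : ‖(a : X)‖ = 1 := ha
      show ‖(a : X) + ((Ξ' a : S) : X)‖ = 2
      rw [hΞ' a ha]
      exact h3 a a.2 ha')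
    (show ‖(⟨y, hy⟩ : S)‖ = 1 from hy1)
  have h4 := hΞ' ⟨y, hy⟩ hy1
  rw [key] at h4
  exact h4.symm

/-- Intermediate values on a sphere of a subspace of dimension at least two. -/
theorem exists_partner (S : Submodule ℝ X) (hS : 1 < Module.rank ℝ S) {w₁ : X} (hw₁ : w₁ ∈ S)
    (hw₁0 : 0 < ‖w₁‖) {ρ τ : ℝ} (hρ : 0 ≤ ρ) (h1 : |‖w₁‖ - ρ| ≤ τ) (h2 : τ ≤ ‖w₁‖ + ρ) :
    ∃ w₂ ∈ S, ‖w₂‖ = ρ ∧ ‖w₁ + w₂‖ = τ := by
  have hconn := isConnected_sphere hS (0 : S) hρ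
  let u : S := ⟨w₁, hw₁⟩
  have hu : ‖u‖ = ‖w₁‖ := rfl
  let a : S := (ρ / ‖w₁‖) • u
  have ha : a ∈ sphere (0 : S) ρ := by
    rw [mem_sphere_zero_iff_norm, norm_smul, hu, Real.norm_of_nonneg (by positivity)]
    field_simp
  have hb : -a ∈ sphere (0 : S) ρ := by
    rw [mem_sphere_zero_iff_norm, norm_neg]
    exact mem_sphere_zero_iff_norm.1 ha
  let F : S → ℝ := fun v => ‖w₁ + (v : X)‖
  have hFc : Continuous F := by
    have : Continuous fun v : S => (v : X) := continuous_subtype_val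
    exact (continuous_const.add this).norm
  have hFa : F a = ‖w₁‖ + ρ := by
    have e : w₁ + ((a : S) : X) = (1 + ρ / ‖w₁‖) • w₁ := by
      show w₁ + (ρ / ‖w₁‖) • w₁ = _
      module
    show ‖w₁ + ((a : S) : X)‖ = _
    rw [e, norm_smul, Real.norm_of_nonneg (by positivity)]
    field_simp
  have hFb : F (-a) = |‖w₁‖ - ρ| := by
    have e : w₁ + ((-a : S) : X) = (1 - ρ / ‖w₁‖) • w₁ := by
      show w₁ + -((ρ / ‖w₁‖) • w₁) = _
      module
    show ‖w₁ + ((-a : S) : X)‖ = _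
    rw [e, norm_smul, Real.norm_eq_abs]
    have e2 : ‖w₁‖ - ρ = (1 - ρ / ‖w₁‖) * ‖w₁‖ := by field_simp
    rw [e2, abs_mul, abs_of_pos hw₁0]
  have hiv := hconn.isPreconnected.intermediate_value hb ha hFc.continuousOn
  have hτ : τ ∈ Set.Icc (F (-a)) (F a) := ⟨by rw [hFb]; exact h1, by rw [hFa]; exact h2⟩
  obtain ⟨v, hv, hFv⟩ := hiv hτ
  exact ⟨v, v.2, mem_sphere_zero_iff_norm.1 hv, hFv⟩

end Vale.Agent.Lib.P084.LpGen
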