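/-
`L_p`-summands: from the splitting `f x = rad f (P x) + rad f (x - P x)` to the linear extension
(step F of the proof for arbitrary `L_p`-sums).

Proof.  With `Δ = m₁ + m₂ > 0` the points `s z₁ + m₁ e` and `s z₂ - m₂ e` are unit vectors, so
`‖s (A z₁ - A z₂) + Δ f e‖ ^ p = Δ ^ p + ‖s (z₁ - z₂)‖ ^ p` for every unit `e` in the kernel.
Decompose `A z₁ - A z₂ = A z₃ + V w₃` (`f` is onto).  Testing `e = ± w₃ / ‖w₃‖` gives
`(s ‖w₃‖ + Δ) ^ p = |s ‖w₃‖ - Δ| ^ p`, which forces `w₃ = 0`; then `‖z₃‖ = ‖z₁ - z₂‖`.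
So the radial extension `A` is an isometry whose range is a subspace: Mazur-Ulam makes it linear.
-/
import Vale.Agent.Lib.P084.LSum.Final
import Vale.Agent.Lib.P084.LpSum.Def

namespace Vale.Agent.Lib.P084.LpGen

open Vale.Agent.Lib.P084.UC Vale.Agent.Lib.P084.Inf
open Vale.Agent.Lib.P084.LSum (rad rad_zero rad_unit norm_inv_smul' norm_rad rad_neg rad_smul
  rad_smul_unit)

variable {X Y : Type*} [NormedAddCommGroup X] [NormedSpace ℝ X] [NormedAddCommGroup Y]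
  [NormedSpace ℝ Y]

/-- Hypotheses of the final step: a linear idempotent splitting the norm in `l_p`, and a sphere
isometry that is the sum of its radial extensions on the two pieces. -/
structure Split (p : ℝ) (P : X →ₗ[ℝ] X) (f : X → Y) : Prop where
  hp : 1 < p
  idem : ∀ x, P (P x) = P x
  pyth : ∀ x, ‖x‖ ^ p = ‖x - P x‖ ^ p + ‖P x‖ ^ p
  iso : IsSphereIso f
  split : ∀ x : X, ‖x‖ = 1 → f x = rad f (P x) + rad f (x - P x)

theorem rpow_inj {p a b : ℝ} (hp : 1 < p) (ha : 0 ≤ a) (hb : 0 ≤ b) (h : a ^ p = b ^ p) : a = b :=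
  (Real.rpow_left_inj ha hb (by linarith)).1 h

namespace Split

variable {p : ℝ} {P : X →ₗ[ℝ] X} {f : X → Y}

/-- The complementary projection. -/
def compl (_h : Split p P f) : X →ₗ[ℝ] X := LinearMap.id - P

theorem compl_apply (h : Split p P f) (x : X) : h.compl x = x - P x := rfl

theorem isCompl (h : Split p P f) : Split p h.compl f where
  hp := h.hp
  idem := by
    intro x
    rw [compl_apply, compl_apply, map_sub, h.idem]
    abel
  pyth := by
    intro x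
    rw [compl_apply, sub_sub_cancel, h.pyth x]
    ring
  iso := h.iso
  split := by
    intro x hx
    rw [compl_apply, sub_sub_cancel, h.split x hx, add_comm]

theorem norm_add_rpow (h : Split p P f) {z w : X} (hz : P z = z) (hw : P w = 0) :
    ‖z + w‖ ^ p = ‖w‖ ^ p + ‖z‖ ^ p := by
  have h1 := h.pyth (z + w)
  rwa [map_add, hz, hw, add_zero, add_sub_cancel_left] at h1

/-- The norm of the sum of the two radial parts. -/
theorem norm_rad_add (h : Split p P f) {z w : X} (hz : P z = z) (hw : P w = 0) :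
    ‖rad f z + rad f w‖ = ‖z + w‖ := by
  by_cases h0 : z + w = 0
  · have hz0 : z = 0 := by
      have := congrArg P h0
      rwa [map_add, hz, hw, add_zero, map_zero] at this
    have hw0 : w = 0 := by rwa [hz0, zero_add] at h0
    simp [hz0, hw0]
  have hr : 0 < ‖z + w‖ := norm_pos_iff.mpr h0
  set r := ‖z + w‖ with hrdef
  have hx : ‖r⁻¹ • (z + w)‖ = 1 := norm_inv_smul' h0
  have hPx : P (r⁻¹ • (z + w)) = r⁻¹ • z := by rw [map_smul, map_add, hz, hw, add_zero]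
  have e1 : r⁻¹ • (z + w) - r⁻¹ • z = r⁻¹ • w := by rw [smul_add]; abel
  have h1 := h.split _ hx
  rw [hPx, e1, rad_smul h.iso, rad_smul h.iso, ← smul_add] at h1
  have h2 := h.iso.norm_eq _ hx
  rw [h1, norm_smul, norm_inv, Real.norm_of_nonneg hr.le] at h2
  field_simp at h2
  linarith

/-- Every vector of `Y` is a sum of two radial parts. -/
theorem exists_decomp (h : Split p P f) (y : Y) :
    ∃ z w : X, P z = z ∧ P w = 0 ∧ rad f z + rad f w = y := by
  by_cases hy : y = 0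
  · exact ⟨0, 0, by simp, by simp, by simp [hy]⟩
  have hy' : ‖y‖ ≠ 0 := norm_ne_zero_iff.mpr hy
  obtain ⟨x, hx1, hx⟩ := h.iso.surj _ (norm_inv_smul' hy)
  refine ⟨‖y‖ • P x, ‖y‖ • (x - P x), by rw [map_smul, h.idem], ?_, ?_⟩
  · rw [map_smul, map_sub, h.idem, sub_self, smul_zero]
  · rw [rad_smul h.iso, rad_smul h.iso, ← smul_add, ← h.split x hx1, hx, smul_smul,
      mul_inv_cancel₀ hy', one_smul]

/-- A point `a + t • e` with `‖a‖ ^ p + |t| ^ p = 1`, `a` in the range, `e` a unit in the kernel. -/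
theorem map_add_smul (h : Split p P f) {a e : X} (ha : P a = a) (he1 : ‖e‖ = 1) (he0 : P e = 0)
    {t : ℝ} (hn : ‖a‖ ^ p + |t| ^ p = 1) :
    ‖a + t • e‖ = 1 ∧ f (a + t • e) = rad f a + t • f e := by
  have hPe : P (t • e) = 0 := by rw [map_smul, he0, smul_zero]
  have h1 : ‖a + t • e‖ = 1 := by
    have h2 := h.norm_add_rpow ha hPe
    rw [norm_smul, he1, mul_one, Real.norm_eq_abs] at h2
    apply rpow_inj h.hp (norm_nonneg _) zero_le_one
    rw [h2, Real.one_rpow]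
    linarith
  refine ⟨h1, ?_⟩
  have hPx : P (a + t • e) = a := by rw [map_add, ha, hPe, add_zero]
  rw [h.split _ h1, hPx, add_sub_cancel_left, rad_smul_unit h.iso t he1]

/-- The test identity. -/
theorem test (h : Split p P f) {z₁ z₂ e : X} (hz₁ : P z₁ = z₁) (hz₂ : P z₂ = z₂) (he1 : ‖e‖ = 1)
    (he0 : P e = 0) {s m₁ m₂ : ℝ} (hm₁ : 0 ≤ m₁) (hm₂ : 0 ≤ m₂)
    (h1 : ‖s • z₁‖ ^ p + m₁ ^ p = 1) (h2 : ‖s • z₂‖ ^ p + m₂ ^ p = 1) :
    ‖s • (rad f z₁ - rad f z₂) + (m₁ + m₂) • f e‖ ^ p =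
      (m₁ + m₂) ^ p + ‖s • (z₁ - z₂)‖ ^ p := by
  have hP1 : P (s • z₁) = s • z₁ := by rw [map_smul, hz₁]
  have hP2 : P (s • z₂) = s • z₂ := by rw [map_smul, hz₂]
  obtain ⟨hu1, hx1⟩ := h.map_add_smul (t := m₁) hP1 he1 he0 (by rwa [abs_of_nonneg hm₁])
  obtain ⟨hu2, hx2⟩ := h.map_add_smul (t := -m₂) hP2 he1 he0 (by rwa [abs_neg, abs_of_nonneg hm₂])
  have hiso := h.iso.iso _ _ hu1 hu2
  rw [hx1, hx2, rad_smul h.iso, rad_smul h.iso] at hiso
  have e1 : s • rad f z₁ + m₁ • f e - (s • rad f z₂ + (-m₂) • f e) =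
      s • (rad f z₁ - rad f z₂) + (m₁ + m₂) • f e := by module
  have e2 : s • z₁ + m₁ • e - (s • z₂ + (-m₂) • e) = s • (z₁ - z₂) + (m₁ + m₂) • e := by module
  rw [e1, e2] at hiso
  rw [hiso, h.norm_add_rpow (by rw [map_smul, map_sub, hz₁, hz₂])
    (by rw [map_smul, he0, smul_zero]), norm_smul, he1, mul_one, Real.norm_of_nonneg
    (add_nonneg hm₁ hm₂)]

/-- The height `m` with `a ^ p + m ^ p = 1`, for `0 ≤ a < 1`. -/
theorem exists_height (hp : 1 < p) {a : ℝ} (ha : 0 ≤ a) (ha1 : a < 1) :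
    ∃ m : ℝ, 0 < m ∧ a ^ p + m ^ p = 1 := by
  have hp0 : 0 < p := by linarith
  have h1 : a ^ p < 1 := Real.rpow_lt_one ha ha1 hp0
  refine ⟨(1 - a ^ p) ^ (1 / p), Real.rpow_pos_of_pos (by linarith) _, ?_⟩
  rw [← Real.rpow_mul (by linarith), one_div, inv_mul_cancel₀ hp0.ne', Real.rpow_one]
  ring

/-- The radial extension is an isometry on the range, and its image is closed under differences. -/
theorem rad_sub (h : Split p P f) {w₀ : X} (hw₀ : ‖w₀‖ = 1) (hw₀P : P w₀ = 0) {z₁ z₂ : X}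
    (hz₁ : P z₁ = z₁) (hz₂ : P z₂ = z₂) :
    ‖rad f z₁ - rad f z₂‖ = ‖z₁ - z₂‖ ∧ ∃ z₃ : X, P z₃ = z₃ ∧ rad f z₁ - rad f z₂ = rad f z₃ := by
  have hp := h.hp
  have hn1 : 0 ≤ ‖z₁‖ := norm_nonneg _
  have hn2 : 0 ≤ ‖z₂‖ := norm_nonneg _
  set n := ‖z₁‖ + ‖z₂‖ with hn
  have hn0 : 0 ≤ n := add_nonneg hn1 hn2
  set s := (n + 1)⁻¹ with hs
  have hspos : 0 < s := inv_pos.mpr (by linarith)
  have hsn : s * n < 1 := by
    rw [hs, inv_mul_lt_iff₀ (by linarith)]
    linarith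
  have ha₁ : s * ‖z₁‖ < 1 := by nlinarith
  have ha₂ : s * ‖z₂‖ < 1 := by nlinarith
  obtain ⟨m₁, hm₁, hh₁⟩ := exists_height hp (a := s * ‖z₁‖) (by positivity) ha₁
  obtain ⟨m₂, hm₂, hh₂⟩ := exists_height hp (a := s * ‖z₂‖) (by positivity) ha₂
  have hh₁' : ‖s • z₁‖ ^ p + m₁ ^ p = 1 := by
    rwa [norm_smul, Real.norm_of_nonneg hspos.le]
  have hh₂' : ‖s • z₂‖ ^ p + m₂ ^ p = 1 := by
    rwa [norm_smul, Real.norm_of_nonneg hspos.le]
  set Δ := m₁ + m₂ with hΔ
  have hΔpos : 0 < Δ := by linarith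
  have htest : ∀ e : X, ‖e‖ = 1 → P e = 0 →
      ‖s • (rad f z₁ - rad f z₂) + Δ • f e‖ ^ p = Δ ^ p + ‖s • (z₁ - z₂)‖ ^ p :=
    fun e he1 he0 => h.test hz₁ hz₂ he1 he0 hm₁.le hm₂.le hh₁' hh₂'
  obtain ⟨z₃, w₃, hz₃, hw₃, hdec⟩ := h.exists_decomp (rad f z₁ - rad f z₂)
  have hPs : P (s • z₃) = s • z₃ := by rw [map_smul, hz₃]
  -- the kernel part vanishes
  have hw₃0 : w₃ = 0 := by
    by_contra hne
    have hr : 0 < ‖w₃‖ := norm_pos_iff.mpr hne
    set r := ‖w₃‖ with hrdef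
    set ŵ := r⁻¹ • w₃ with hŵ
    have hŵ1 : ‖ŵ‖ = 1 := norm_inv_smul' hne
    have hŵ0 : P ŵ = 0 := by rw [hŵ, map_smul, hw₃, smul_zero]
    have hradw : rad f w₃ = r • f ŵ := rfl
    have hŵn : P (-ŵ) = 0 := by rw [map_neg, hŵ0, neg_zero]
    have hŵn1 : ‖-ŵ‖ = 1 := by rw [norm_neg, hŵ1]
    have hodd : f (-ŵ) = - f ŵ := odd_of_isSphereIso h.iso hŵ1
    have hsr : 0 < s * r := by positivity
    have hsub : ∀ t : ℝ, P (t • ŵ) = 0 := fun t => by rw [map_smul, hŵ0, smul_zero]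
    -- plus
    have h1 := htest ŵ hŵ1 hŵ0
    have e1 : s • (rad f z₁ - rad f z₂) + Δ • f ŵ =
        rad f (s • z₃) + rad f ((s * r + Δ) • ŵ) := by
      rw [← hdec, rad_smul h.iso, rad_smul_unit h.iso _ hŵ1, hradw]
      module
    have h2 := h.norm_rad_add hPs (hsub (s * r + Δ))
    have h3 := h.norm_add_rpow hPs (hsub (s * r + Δ))
    rw [← e1] at h2
    rw [← h2, h1, norm_smul (s * r + Δ), hŵ1, mul_one, Real.norm_eq_abs] at h3
    -- minus
    have h4 := htest (-ŵ) hŵn1 hŵn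
    rw [hodd] at h4
    have e2 : s • (rad f z₁ - rad f z₂) + Δ • (- f ŵ) =
        rad f (s • z₃) + rad f ((s * r - Δ) • ŵ) := by
      rw [← hdec, rad_smul h.iso, rad_smul_unit h.iso _ hŵ1, hradw]
      module
    have h5 := h.norm_rad_add hPs (hsub (s * r - Δ))
    have h6 := h.norm_add_rpow hPs (hsub (s * r - Δ))
    rw [← e2] at h5
    rw [← h5, h4, norm_smul (s * r - Δ), hŵ1, mul_one, Real.norm_eq_abs] at h6
    have h7 : |s * r + Δ| ^ p = |s * r - Δ| ^ p := by linarith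
    have h8 := rpow_inj hp (abs_nonneg _) (abs_nonneg _) h7
    rw [abs_of_pos (by linarith : 0 < s * r + Δ)] at h8
    have h9 : |s * r - Δ| < s * r + Δ := abs_lt.2 ⟨by linarith, by linarith⟩
    linarith
  subst hw₃0
  rw [rad_zero, add_zero] at hdec
  refine ⟨?_, z₃, hz₃, hdec.symm⟩
  -- the norm
  have hsub : P (Δ • w₀) = 0 := by rw [map_smul, hw₀P, smul_zero]
  have h1 := htest w₀ hw₀ hw₀P
  have e1 : s • (rad f z₁ - rad f z₂) + Δ • f w₀ = rad f (s • z₃) + rad f (Δ • w₀) := by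
    rw [← hdec, rad_smul h.iso, rad_smul_unit h.iso _ hw₀]
  have h2 := h.norm_rad_add hPs hsub
  have h3 := h.norm_add_rpow hPs hsub
  rw [← e1] at h2
  rw [← h2, h1, norm_smul Δ, hw₀, mul_one, Real.norm_of_nonneg hΔpos.le] at h3
  have h4 : ‖s • (z₁ - z₂)‖ ^ p = ‖s • z₃‖ ^ p := by linarith
  have h5 := rpow_inj hp (norm_nonneg _) (norm_nonneg _) h4
  rw [norm_smul, norm_smul, Real.norm_of_nonneg hspos.le] at h5
  have h6 : ‖z₁ - z₂‖ = ‖z₃‖ := mul_left_cancel₀ hspos.ne' h5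
  rw [← hdec, norm_rad h.iso, h6]

/-- Additivity of the radial extension on the range (Mazur-Ulam). -/
theorem rad_add (h : Split p P f) {w₀ : X} (hw₀ : ‖w₀‖ = 1) (hw₀P : P w₀ = 0) {z₁ z₂ : X}
    (hz₁ : P z₁ = z₁) (hz₂ : P z₂ = z₂) :
    rad f (z₁ + z₂) = rad f z₁ + rad f z₂ := by
  classical
  -- the range of the radial extension is a subspace
  let R : Submodule ℝ Y :=
    { carrier := {y | ∃ z : X, P z = z ∧ rad f z = y}
      zero_mem' := ⟨0, by simp, by simp⟩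
      add_mem' := by
        rintro _ _ ⟨a, ha, rfl⟩ ⟨b, hb, rfl⟩
        obtain ⟨-, c, hc, hc'⟩ := h.rad_sub hw₀ hw₀P (z₁ := a) (z₂ := -b) ha
          (by rw [map_neg, hb])
        refine ⟨c, hc, ?_⟩
        rw [← hc', rad_neg h.iso, sub_neg_eq_add]
      smul_mem' := by
        rintro t _ ⟨a, ha, rfl⟩
        exact ⟨t • a, by rw [map_smul, ha], rad_smul h.iso t a⟩ }
  let Z : Submodule ℝ X := LinearMap.ker (LinearMap.id - P)
  have memZ : ∀ v : X, v ∈ Z ↔ P v = v := by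
    intro v
    simp only [Z, LinearMap.mem_ker, LinearMap.sub_apply, LinearMap.id_apply, sub_eq_zero]
    exact eq_comm
  let A : Z → R := fun u => ⟨rad f u, ⟨u, (memZ u).1 u.2, rfl⟩⟩
  have hA : Isometry A := by
    apply Isometry.of_dist_eq
    intro u v
    change dist (rad f (u : X)) (rad f (v : X)) = dist (u : X) (v : X)
    rw [dist_eq_norm, dist_eq_norm]
    exact (h.rad_sub hw₀ hw₀P ((memZ u).1 u.2) ((memZ v).1 v.2)).1
  have hAs : Function.Surjective A := by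
    rintro ⟨y, z, hz, rfl⟩
    exact ⟨⟨z, (memZ z).2 hz⟩, rfl⟩
  have hA0 : A 0 = 0 := by
    apply Subtype.ext
    simp [A]
  let e : Z ≃ᵢ R := { toEquiv := Equiv.ofBijective A ⟨hA.injective, hAs⟩, isometry_toFun := hA }
  have he0 : e 0 = 0 := hA0
  let L : Z ≃ₗᵢ[ℝ] R := e.toRealLinearIsometryEquivOfMapZero he0
  have hL : ∀ u : Z, (L u : Y) = rad f u := fun u => rfl
  let u₁ : Z := ⟨z₁, (memZ z₁).2 hz₁⟩
  let u₂ : Z := ⟨z₂, (memZ z₂).2 hz₂⟩
  have h' := congrArg Subtype.val (map_add L u₁ u₂)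
  simpa [hL, u₁, u₂] using h'

/-- The linear extension, from the splitting. -/
theorem exists_linearIsometryEquiv (h : Split p P f) {z₀ w₀ : X} (hz₀ : P z₀ ≠ 0)
    (hw₀ : P w₀ ≠ w₀) : ∃ T : X ≃ₗᵢ[ℝ] Y, ∀ x : X, ‖x‖ = 1 → T x = f x := by
  classical
  have hQ := h.isCompl
  have hne2 : w₀ - P w₀ ≠ 0 := sub_ne_zero.mpr (Ne.symm hw₀)
  have hunit1 := norm_inv_smul' hz₀
  have hunit2 := norm_inv_smul' hne2
  have hu1 : h.compl (‖P z₀‖⁻¹ • P z₀) = 0 := by
    rw [compl_apply, map_smul, h.idem, sub_self]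
  have hu2 : P (‖w₀ - P w₀‖⁻¹ • (w₀ - P w₀)) = 0 := by
    rw [map_smul, map_sub, h.idem, sub_self, smul_zero]
  have haddZ : ∀ a b : X, P a = a → P b = b → rad f (a + b) = rad f a + rad f b :=
    fun a b ha hb => h.rad_add hunit2 hu2 ha hb
  have hcompl : ∀ a : X, P a = 0 → h.compl a = a := fun a ha => by rw [compl_apply, ha, sub_zero]
  have haddW : ∀ a b : X, P a = 0 → P b = 0 → rad f (a + b) = rad f a + rad f b := by
    intro a b ha hb
    exact hQ.rad_add hunit1 hu1 (hcompl a ha) (hcompl b hb)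
  let T₀ : X →ₗ[ℝ] Y :=
    { toFun := fun x => rad f (P x) + rad f (x - P x)
      map_add' := by
        intro a b
        have e : a + b - P (a + b) = (a - P a) + (b - P b) := by rw [map_add]; abel
        rw [e, map_add, haddZ _ _ (h.idem a) (h.idem b),
          haddW _ _ (by rw [map_sub, h.idem, sub_self]) (by rw [map_sub, h.idem, sub_self])]
        abel
      map_smul' := by
        intro t a
        have e : t • a - P (t • a) = t • (a - P a) := by rw [map_smul, smul_sub]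
        simp only [RingHom.id_apply]
        rw [e, map_smul, rad_smul h.iso, rad_smul h.iso, smul_add] }
  have hT₀ : ∀ x, T₀ x = rad f (P x) + rad f (x - P x) := fun x => rfl
  let T₁ : X →ₗᵢ[ℝ] Y :=
    { toLinearMap := T₀
      norm_map' := by
        intro x
        rw [hT₀, h.norm_rad_add (h.idem x) (by rw [map_sub, h.idem, sub_self]),
          add_sub_cancel]}
  have hT₁ : ∀ x, T₁ x = rad f (P x) + rad f (x - P x) := fun x => rfl
  have hsurj : Function.Surjective T₁ := by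
    intro y
    obtain ⟨z, w, hz, hw, rfl⟩ := h.exists_decomp y
    refine ⟨z + w, ?_⟩
    have e1 : P (z + w) = z := by rw [map_add, hz, hw, add_zero]
    rw [hT₁, e1, add_sub_cancel_left]
  refine ⟨LinearIsometryEquiv.ofSurjective T₁ hsurj, fun x hx => ?_⟩
  rw [h.split x hx]
  rfl

end Split

/-- **Final step.** If `f` is the sum of its radial extensions on the two pieces of an `L_p`-summand,
then `f` extends to a surjective linear isometry. -/
theorem extends_of_split {p : ℝ} {P : X →L[ℝ] X} (H : LpSum.IsLpSummand p P) (hp : 1 < p)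
    {f : X → Y} (hf : IsSphereIso f)
    (hsplit : ∀ x : X, ‖x‖ = 1 → f x = LSum.rad f (P x) + LSum.rad f (x - P x)) {z0 w0 : X}
    (hz0 : P z0 ≠ 0) (hw0 : P w0 ≠ w0) :
    ∃ T : X ≃ₗᵢ[ℝ] Y, ∀ x : X, ‖x‖ = 1 → T x = f x :=
  Split.exists_linearIsometryEquiv (p := p) (P := (P : X →ₗ[ℝ] X))
    ⟨hp, H.idem, H.pyth, hf, hsplit⟩ hz0 hw0

end Vale.Agent.Lib.P084.LpGen
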