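/-
`L_p`-summands: the cases where a piece has dimension at most one reduce to the strictly convex
case `LpSum.extends_of_isLpSummand`.
-/
import Vale.Agent.Lib.P084.LpSum.Sum

namespace Vale.Agent.Lib.P084.LpGen

open Vale.Agent.Lib.P084.UC Vale.Agent.Lib.P084.LpSum

variable {X Y : Type*} [NormedAddCommGroup X] [NormedSpace ℝ X] [NormedAddCommGroup Y]
  [NormedSpace ℝ Y]

/-- A normed space of rank at most one is strictly convex. -/
theorem strictConvexSpace_of_rank_le_one {W : Type*} [NormedAddCommGroup W] [NormedSpace ℝ W]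
    (h : Module.rank ℝ W ≤ 1) : StrictConvexSpace ℝ W := by
  obtain ⟨v, hv⟩ := rank_le_one_iff.1 h
  apply StrictConvexSpace.of_norm_add_ne_two
  intro x y hx hy hne
  obtain ⟨a, rfl⟩ := hv x
  obtain ⟨b, rfl⟩ := hv y
  rw [norm_smul, Real.norm_eq_abs] at hx hy
  have hab : |a| = |b| := by
    have hv0 : ‖v‖ ≠ 0 := by
      intro h0
      rw [h0, mul_zero] at hx
      exact zero_ne_one hx
    exact mul_right_cancel₀ hv0 (hx.trans hy.symm)
  rcases abs_eq_abs.1 hab with e | e
  · exact absurd (by rw [e]) hne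
  · rw [e, neg_smul, neg_add_cancel, norm_zero]
    norm_num

/-- The complementary projection of an `L_p`-projection is an `L_p`-projection. -/
theorem compl_summand {p : ℝ} {P : X →L[ℝ] X} (H : IsLpSummand p P) : IsLpSummand p (1 - P) where
  idem := by
    intro x
    simp only [ContinuousLinearMap.sub_apply, ContinuousLinearMap.one_apply, map_sub, H.idem]
    abel
  pyth := by
    intro x
    simp only [ContinuousLinearMap.sub_apply, ContinuousLinearMap.one_apply, sub_sub_cancel]
    rw [H.pyth x]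
    ring

/-- The range of the complement is the kernel. -/
theorem range_compl {P : X →L[ℝ] X} (hidem : ∀ x, P (P x) = P x) :
    LinearMap.range (1 - P : X →L[ℝ] X).toLinearMap = LinearMap.ker P.toLinearMap := by
  ext x
  constructor
  · rintro ⟨y, rfl⟩
    simp [LinearMap.mem_ker, hidem]
  · intro hx
    refine ⟨x, ?_⟩
    have hx' : P x = 0 := hx
    simp [hx']

/-- Reduction of an `L_p`-summand in infinite dimension to the case where both pieces have rank at
least two. -/
theorem extends_of_cases {p : ℝ} {P : X →L[ℝ] X} (H : IsLpSummand p P) (hp : 1 < p) (hP0 : P ≠ 0)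
    (hP1 : P ≠ 1) (hX : ¬ FiniteDimensional ℝ X) {f : X → Y} (hf : IsSphereIso f)
    (hmain : 1 < Module.rank ℝ (LinearMap.range P.toLinearMap) →
      1 < Module.rank ℝ (LinearMap.ker P.toLinearMap) →
      ∃ T : X ≃ₗᵢ[ℝ] Y, ∀ x, ‖x‖ = 1 → T x = f x) :
    ∃ T : X ≃ₗᵢ[ℝ] Y, ∀ x, ‖x‖ = 1 → T x = f x := by
  by_cases h1 : 1 < Module.rank ℝ (LinearMap.range P.toLinearMap)
  · by_cases h2 : 1 < Module.rank ℝ (LinearMap.ker P.toLinearMap)
    · exact hmain h1 h2
    · have hQ := compl_summand H
      have hQ0 : (1 - P : X →L[ℝ] X) ≠ 0 := fun h => hP1 (sub_eq_zero.1 h).symm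
      have hr : Module.rank ℝ (LinearMap.range (1 - P : X →L[ℝ] X).toLinearMap) ≤ 1 := by
        rw [range_compl H.idem]
        exact not_lt.1 h2
      exact extends_of_isLpSummand hQ hp (strictConvexSpace_of_rank_le_one hr) hQ0 hX hf
  · exact extends_of_isLpSummand H hp (strictConvexSpace_of_rank_le_one (not_lt.1 h1)) hP0 hX hf

end Vale.Agent.Lib.P084.LpGen
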