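/-
Tingley's problem for `Z ⊕_p W`: pairs with parallel first parts.
-/
import Vale.Agent.Lib.P084.LpGen.Basic

set_option linter.unusedSectionVars false

namespace Vale.Agent.Lib.P084.LpGen

open Vale.Agent.Lib.P084.UC Vale.Agent.Lib.P084.Inf
open Vale.Agent.Lib.P084.LpSum (IsLpSummand)
open Metric

variable {X Y : Type*} [NormedAddCommGroup X] [NormedSpace ℝ X] [NormedAddCommGroup Y]
  [NormedSpace ℝ Y]

/-- The data: a `p`-summand and a sphere isometry with its inverse. -/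
structure Ctx (p : ℝ) (P : X →L[ℝ] X) (f : X → Y) (g : Y → X) : Prop where
  H : IsLpSummand p P
  hp : 1 < p
  hf : IsSphereIso f
  hg : IsSphereIso g
  hgf : ∀ x : X, ‖x‖ = 1 → g (f x) = x
  hfg : ∀ y : Y, ‖y‖ = 1 → f (g y) = y

variable {p : ℝ} {P : X →L[ℝ] X} {f : X → Y} {g : Y → X}

namespace Ctx

theorem hp0 (C : Ctx p P f g) : 0 < p := by linarith [C.hp]

theorem compl (C : Ctx p P f g) : Ctx p (1 - P) f g :=
  ⟨LpGen.compl C.H, C.hp, C.hf, C.hg, C.hgf, C.hfg⟩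

theorem hodd (C : Ctx p P f g) {x : X} (hx : ‖x‖ = 1) : f (-x) = -f x :=
  odd_of_isSphereIso C.hf hx

/-- `‖f x + f y‖ = ‖x + y‖`. -/
theorem norm_fadd (C : Ctx p P f g) {x y : X} (hx : ‖x‖ = 1) (hy : ‖y‖ = 1) :
    ‖f x + f y‖ = ‖x + y‖ := by
  have h := C.hf.iso x (-y) hx (by rwa [norm_neg])
  rw [C.hodd hy, sub_neg_eq_add, sub_neg_eq_add] at h
  exact h

theorem norm_fsub (C : Ctx p P f g) {x y : X} (hx : ‖x‖ = 1) (hy : ‖y‖ = 1) :
    ‖f x - f y‖ = ‖x - y‖ := C.hf.iso x y hx hy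

section Pair

variable (C : Ctx p P f g) {x y T : X} (hx : ‖x‖ = 1) (hy : ‖y‖ = 1) (hT : ‖T‖ = 1)
  (hfT : f T = f x + f y)

include C hx hy hT hfT

theorem sub_left : ‖T - x‖ = 1 := by
  rw [← C.hf.iso T x hT hx, hfT, add_sub_cancel_left, C.hf.norm_eq y hy]

theorem sub_right : ‖T - y‖ = 1 := by
  rw [← C.hf.iso T y hT hy, hfT, add_sub_cancel_right, C.hf.norm_eq x hx]

/-- Doubling: `‖2 x - T‖ = ‖x - y‖`. -/
theorem chord_left : ‖(2 : ℝ) • x - T‖ = ‖x - y‖ := by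
  have hd := C.hf.doubling hx hT (C.sub_left hx hy hT hfT)
  have e1 : f x - (1 / 2 : ℝ) • f T = (1 / 2 : ℝ) • (f x - f y) := by rw [hfT]; module
  have e2 : (2 : ℝ) • x - T = (2 : ℝ) • (x - (1 / 2 : ℝ) • T) := by module
  rw [e2, norm_smul, ← hd, e1, norm_smul, C.hf.iso x y hx hy]
  norm_num
  ring

/-- Doubling: `‖2 y - T‖ = ‖x - y‖`. -/
theorem chord_right : ‖(2 : ℝ) • y - T‖ = ‖x - y‖ := by
  have hd := C.hf.doubling hy hT (C.sub_right hx hy hT hfT)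
  have e1 : f y - (1 / 2 : ℝ) • f T = (1 / 2 : ℝ) • (f y - f x) := by rw [hfT]; module
  have e2 : (2 : ℝ) • y - T = (2 : ℝ) • (y - (1 / 2 : ℝ) • T) := by module
  rw [e2, norm_smul, ← hd, e1, norm_smul, C.hf.iso y x hy hx, norm_sub_rev x y]
  norm_num
  ring

/-- If the first part of `T` is twice the first part of `y`, then `x` and `y` have equal first parts. -/
theorem part_eq_of_double (h : P T = (2 : ℝ) • P y) : P x = P y := by
  have h1 : ‖(x - y) + (x + y - T)‖ = ‖x - y‖ := by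
    have e : (x - y) + (x + y - T) = (2 : ℝ) • x - T := by module
    rw [e]; exact C.chord_left hx hy hT hfT
  have h2 : ‖(x - y) - (x + y - T)‖ = ‖x - y‖ := by
    have e : (x - y) - (x + y - T) = -((2 : ℝ) • y - T) := by module
    rw [e, norm_neg]; exact C.chord_right hx hy hT hfT
  have h3 := flat_part C.H C.hp h1 h2
  have e3 : P ((x - y) - (x + y - T)) = 0 := by
    have e : (x - y) - (x + y - T) = T - (2 : ℝ) • y := by module
    rw [e, map_sub, map_smul, h, sub_self]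
  rw [e3, norm_zero] at h3
  have h4 : P (x - y) = 0 := norm_eq_zero.1 h3.symm
  rw [map_sub] at h4
  exact sub_eq_zero.1 h4

/-- The two facts on `P T`. -/
theorem part_split : ‖P T - (1 / 2 : ℝ) • P y‖ = ‖P x + (1 / 2 : ℝ) • P y‖ ∧
    ‖P x + P T‖ = 2 * ‖P x + (1 / 2 : ℝ) • P y‖ := by
  have hty : ‖y - T‖ = 1 := by rw [norm_sub_rev]; exact C.sub_right hx hy hT hfT
  have hd1 := C.hf.doubling hT hy hty
  have hxy : ‖(-y) - x‖ = ‖x + y‖ := by
    rw [← norm_neg]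
    congr 1
    abel
  have hf2 : f T - (1 / 2 : ℝ) • f y = f x + (1 / 2 : ℝ) • f y := by rw [hfT]; module
  have hd2 : ‖f x + (1 / 2 : ℝ) • f y‖ = ‖T - (1 / 2 : ℝ) • y‖ := by
    rw [← hd1, hf2]
  -- the unit sum is unknown here: use `‖x + y‖ = ‖f T‖ = 1`
  have hs : ‖x + y‖ = 1 := by
    rw [← C.norm_fadd hx hy, ← hfT]
    exact C.hf.norm_eq T hT
  have hd3 := C.hf.doubling hx (y := -y) (by rwa [norm_neg]) (by rw [hxy]; exact hs)
  rw [C.hodd hy] at hd3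
  have e1 : f x - (1 / 2 : ℝ) • -f y = f x + (1 / 2 : ℝ) • f y := by module
  have e2 : x - (1 / 2 : ℝ) • -y = x + (1 / 2 : ℝ) • y := by module
  rw [e1, e2] at hd3
  have hv : ‖x + (1 / 2 : ℝ) • y‖ = ‖T - (1 / 2 : ℝ) • y‖ := by rw [← hd3, hd2]
  have hsum : ‖x + T‖ = 2 * ‖x + (1 / 2 : ℝ) • y‖ := by
    rw [← C.norm_fadd hx hT, hfT, ← hd3]
    have e : f x + (f x + f y) = (2 : ℝ) • (f x + (1 / 2 : ℝ) • f y) := by module
    rw [e, norm_smul]
    norm_num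
  have e3 : (x + (1 / 2 : ℝ) • y) + (T - (1 / 2 : ℝ) • y) = x + T := by abel
  have h4 := split C.H C.hp hv (by rw [e3]; exact hsum)
  rw [e3] at h4
  have e4 : P (x + (1 / 2 : ℝ) • y) = P x + (1 / 2 : ℝ) • P y := by rw [map_add, map_smul]
  have e5 : P (T - (1 / 2 : ℝ) • y) = P T - (1 / 2 : ℝ) • P y := by rw [map_sub, map_smul]
  rw [e4, e5, map_add] at h4
  refine ⟨h4.1.symm, ?_⟩
  rw [h4.2, ← h4.1]
  ring

end Pair

end Ctx

end Vale.Agent.Lib.P084.LpGen
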