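/-
Tingley's problem for `Z ⊕_p W`: the output of a pair with parallel first parts.
-/
import Vale.Agent.Lib.P084.LpGen.Pair

set_option linter.unusedSectionVars false

namespace Vale.Agent.Lib.P084.LpGen

open Vale.Agent.Lib.P084.UC Vale.Agent.Lib.P084.Inf
open Vale.Agent.Lib.P084.LpSum (IsLpSummand)
open Metric

variable {X Y : Type*} [NormedAddCommGroup X] [NormedSpace ℝ X] [NormedAddCommGroup Y]
  [NormedSpace ℝ Y]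

variable {p : ℝ} {P : X →L[ℝ] X} {f : X → Y} {g : Y → X}

/-- A unit vector from its two parts. -/
theorem norm_unit (H : IsLpSummand p P) (hp0 : 0 < p) {l : ℝ} {w ξ : X} (hl : 0 ≤ l) (hξ : P ξ = ξ)
    (hξ1 : ‖ξ‖ = 1) (hw : P w = 0) (h : l ^ p + ‖w‖ ^ p = 1) : ‖l • ξ + w‖ = 1 := by
  have h1 := pyth2 H (z := l • ξ) (w := w) (by rw [map_smul, hξ]) hw
  rw [norm_smul, hξ1, mul_one, Real.norm_of_nonneg hl] at h1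
  apply rpow_eq_of_eq hp0 (norm_nonneg _) zero_le_one
  rw [h1, Real.one_rpow]
  linarith

namespace Ctx

variable (C : Ctx p P f g) {l₁ l₂ : ℝ} {w₁ w₂ : X}

section

variable (hl₁ : 0 < l₁) (hl₂ : 0 < l₂) (hw₁ : P w₁ = 0) (hw₂ : P w₂ = 0)
  (h₁ : l₁ ^ p + ‖w₁‖ ^ p = 1) (h₂ : l₂ ^ p + ‖w₂‖ ^ p = 1)
  (h₃ : (l₁ + l₂) ^ p + ‖w₁ + w₂‖ ^ p = 1)

include C hl₁ hl₂ hw₁ hw₂ h₁ h₂ h₃

/-- The elementary facts on the output. -/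
theorem out_facts {ξ : X} (hξ : P ξ = ξ) (hξ1 : ‖ξ‖ = 1) :
    ‖l₁ • ξ + w₁‖ = 1 ∧ ‖l₂ • ξ + w₂‖ = 1 ∧ ‖f (l₁ • ξ + w₁) + f (l₂ • ξ + w₂)‖ = 1 := by
  have hx := norm_unit C.H C.hp0 hl₁.le hξ hξ1 hw₁ h₁
  have hy := norm_unit C.H C.hp0 hl₂.le hξ hξ1 hw₂ h₂
  refine ⟨hx, hy, ?_⟩
  rw [C.norm_fadd hx hy]
  have e : l₁ • ξ + w₁ + (l₂ • ξ + w₂) = (l₁ + l₂) • ξ + (w₁ + w₂) := by module
  rw [e]
  exact norm_unit C.H C.hp0 (by positivity) hξ hξ1 (by rw [map_add, hw₁, hw₂, add_zero]) h₃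

/-- The norm of the first part of the output. -/
theorem out_part_norm {ξ : X} (hξ : P ξ = ξ) (hξ1 : ‖ξ‖ = 1) :
    ‖P (g (f (l₁ • ξ + w₁) + f (l₂ • ξ + w₂)))‖ = l₁ + l₂ ∧
      ‖l₁ • ξ + P (g (f (l₁ • ξ + w₁) + f (l₂ • ξ + w₂)))‖ = l₁ + (l₁ + l₂) := by
  obtain ⟨hx, hy, hs⟩ := C.out_facts hl₁ hl₂ hw₁ hw₂ h₁ h₂ h₃ hξ hξ1
  set T := g (f (l₁ • ξ + w₁) + f (l₂ • ξ + w₂)) with hTdef
  have hT : ‖T‖ = 1 := C.hg.norm_eq _ hs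
  have hfT : f T = f (l₁ • ξ + w₁) + f (l₂ • ξ + w₂) := C.hfg _ hs
  obtain ⟨h1, h2⟩ := C.part_split hx hy hT hfT
  have ePx : P (l₁ • ξ + w₁) = l₁ • ξ := by rw [map_add, map_smul, hξ, hw₁, add_zero]
  have ePy : P (l₂ • ξ + w₂) = l₂ • ξ := by rw [map_add, map_smul, hξ, hw₂, add_zero]
  rw [ePx, ePy] at h1 h2
  have e : l₁ • ξ + (1 / 2 : ℝ) • l₂ • ξ = (l₁ + l₂ / 2) • ξ := by module
  have hn : ‖l₁ • ξ + (1 / 2 : ℝ) • l₂ • ξ‖ = l₁ + l₂ / 2 := by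
    rw [e, norm_smul, hξ1, mul_one, Real.norm_of_nonneg (by positivity)]
  rw [hn] at h1 h2
  have h5 : ‖P T‖ ≤ l₁ + l₂ := by
    have h6 := norm_add_le (P T - (1 / 2 : ℝ) • l₂ • ξ) ((1 / 2 : ℝ) • l₂ • ξ)
    rw [sub_add_cancel, h1, norm_smul, norm_smul, hξ1, mul_one, Real.norm_of_nonneg hl₂.le] at h6
    norm_num at h6
    linarith
  have h7 : l₁ + l₂ ≤ ‖P T‖ := by
    have h6 := norm_add_le (l₁ • ξ) (P T)
    rw [h2, norm_smul, hξ1, mul_one, Real.norm_of_nonneg hl₁.le] at h6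
    linarith
  refine ⟨le_antisymm h5 h7, ?_⟩
  rw [h2]
  ring

/-- **Lemma B**: the first part of the output is exact. -/
theorem out_part {ξ : X} (hξ : P ξ = ξ) (hξ1 : ‖ξ‖ = 1) :
    P (g (f (l₁ • ξ + w₁) + f (l₂ • ξ + w₂))) = (l₁ + l₂) • ξ := by
  have hl : 0 < l₁ + l₂ := by positivity
  let Ξ : X → X := fun a => (l₁ + l₂)⁻¹ • P (g (f (l₁ • a + w₁) + f (l₂ • a + w₂)))
  have hΞ : ∀ a : X, (l₁ + l₂) • Ξ a = P (g (f (l₁ • a + w₁) + f (l₂ • a + w₂))) := by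
    intro a
    simp only [Ξ]
    rw [smul_smul, mul_inv_cancel₀ hl.ne', one_smul]
  have key := eq_of_cofacial_on (Fix P) (Ξ := Ξ) (y := ξ)
    (fun a _ _ => by
      rw [mem_Fix]
      simp only [Ξ]
      rw [map_smul, C.H.idem])
    (fun a ha ha1 => by
      have h := (C.out_part_norm hl₁ hl₂ hw₁ hw₂ h₁ h₂ h₃ (mem_Fix.1 ha) ha1).1
      simp only [Ξ]
      rw [norm_smul, h, norm_inv, Real.norm_of_nonneg hl.le, inv_mul_cancel₀ hl.ne'])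
    (fun a ha b hb ha1 hb1 => by
      obtain ⟨hx, hy, hs⟩ := C.out_facts hl₁ hl₂ hw₁ hw₂ h₁ h₂ h₃ (mem_Fix.1 ha) ha1
      obtain ⟨hx', hy', hs'⟩ := C.out_facts hl₁ hl₂ hw₁ hw₂ h₁ h₂ h₃ (mem_Fix.1 hb) hb1
      have e : Ξ a - Ξ b = (l₁ + l₂)⁻¹ • (P (g (f (l₁ • a + w₁) + f (l₂ • a + w₂))) -
          P (g (f (l₁ • b + w₁) + f (l₂ • b + w₂)))) := by
        simp only [Ξ, smul_sub]
      rw [e, norm_smul, norm_inv, Real.norm_of_nonneg hl.le, ← map_sub]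
      have h3 := norm_P_le C.H C.hp (g (f (l₁ • a + w₁) + f (l₂ • a + w₂)) -
        g (f (l₁ • b + w₁) + f (l₂ • b + w₂)))
      rw [C.hg.iso _ _ hs hs'] at h3
      have e2 : f (l₁ • a + w₁) + f (l₂ • a + w₂) - (f (l₁ • b + w₁) + f (l₂ • b + w₂)) =
          (f (l₁ • a + w₁) - f (l₁ • b + w₁)) + (f (l₂ • a + w₂) - f (l₂ • b + w₂)) := by abel
      rw [e2] at h3
      have h4 := norm_add_le (f (l₁ • a + w₁) - f (l₁ • b + w₁))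
        (f (l₂ • a + w₂) - f (l₂ • b + w₂))
      rw [C.hf.iso _ _ hx hx', C.hf.iso _ _ hy hy'] at h4
      have e3 : l₁ • a + w₁ - (l₁ • b + w₁) = l₁ • (a - b) := by module
      have e4 : l₂ • a + w₂ - (l₂ • b + w₂) = l₂ • (a - b) := by module
      rw [e3, e4, norm_smul, norm_smul, Real.norm_of_nonneg hl₁.le, Real.norm_of_nonneg hl₂.le] at h4
      have h5 : ‖P (g (f (l₁ • a + w₁) + f (l₂ • a + w₂)) - g (f (l₁ • b + w₁) + f (l₂ • b + w₂)))‖ ≤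
          (l₁ + l₂) * ‖a - b‖ := by
        rw [add_mul]
        exact h3.trans h4
      calc (l₁ + l₂)⁻¹ * ‖P (g (f (l₁ • a + w₁) + f (l₂ • a + w₂)) -
              g (f (l₁ • b + w₁) + f (l₂ • b + w₂)))‖
          ≤ (l₁ + l₂)⁻¹ * ((l₁ + l₂) * ‖a - b‖) :=
            mul_le_mul_of_nonneg_left h5 (by positivity)
        _ = ‖a - b‖ := by rw [← mul_assoc, inv_mul_cancel₀ hl.ne', one_mul])
    (fun a ha ha1 => by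
      have h := (C.out_part_norm hl₁ hl₂ hw₁ hw₂ h₁ h₂ h₃ (mem_Fix.1 ha) ha1).2
      have hn : ‖Ξ a‖ = 1 := by
        have h' := (C.out_part_norm hl₁ hl₂ hw₁ hw₂ h₁ h₂ h₃ (mem_Fix.1 ha) ha1).1
        simp only [Ξ]
        rw [norm_smul, h', norm_inv, Real.norm_of_nonneg hl.le, inv_mul_cancel₀ hl.ne']
      exact cofacial_of_comb ha1 hn hl₁ hl (by rw [hΞ a]; exact h))
    (mem_Fix.2 hξ) hξ1
  rw [← hΞ ξ, key]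

/-- The second part of the output does not depend on `ξ`. -/
theorem out_indep {ξ ξ' : X} (hξ : P ξ = ξ) (hξ1 : ‖ξ‖ = 1) (hξ' : P ξ' = ξ') (hξ1' : ‖ξ'‖ = 1) :
    g (f (l₁ • ξ + w₁) + f (l₂ • ξ + w₂)) - (l₁ + l₂) • ξ =
      g (f (l₁ • ξ' + w₁) + f (l₂ • ξ' + w₂)) - (l₁ + l₂) • ξ' := by
  obtain ⟨hx, hy, hs⟩ := C.out_facts hl₁ hl₂ hw₁ hw₂ h₁ h₂ h₃ hξ hξ1
  obtain ⟨hx', hy', hs'⟩ := C.out_facts hl₁ hl₂ hw₁ hw₂ h₁ h₂ h₃ hξ' hξ1'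
  have hP := C.out_part hl₁ hl₂ hw₁ hw₂ h₁ h₂ h₃ hξ hξ1
  have hP' := C.out_part hl₁ hl₂ hw₁ hw₂ h₁ h₂ h₃ hξ' hξ1'
  set T := g (f (l₁ • ξ + w₁) + f (l₂ • ξ + w₂)) with hT
  set T' := g (f (l₁ • ξ' + w₁) + f (l₂ • ξ' + w₂)) with hT'
  have hp0 := C.hp0
  have hle : ‖T - T'‖ ≤ (l₁ + l₂) * ‖ξ - ξ'‖ := by
    rw [hT, hT', C.hg.iso _ _ hs hs']
    have e2 : f (l₁ • ξ + w₁) + f (l₂ • ξ + w₂) - (f (l₁ • ξ' + w₁) + f (l₂ • ξ' + w₂)) =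
        (f (l₁ • ξ + w₁) - f (l₁ • ξ' + w₁)) + (f (l₂ • ξ + w₂) - f (l₂ • ξ' + w₂)) := by abel
    rw [e2]
    have h4 := norm_add_le (f (l₁ • ξ + w₁) - f (l₁ • ξ' + w₁))
      (f (l₂ • ξ + w₂) - f (l₂ • ξ' + w₂))
    rw [C.hf.iso _ _ hx hx', C.hf.iso _ _ hy hy'] at h4
    have e3 : l₁ • ξ + w₁ - (l₁ • ξ' + w₁) = l₁ • (ξ - ξ') := by module
    have e4 : l₂ • ξ + w₂ - (l₂ • ξ' + w₂) = l₂ • (ξ - ξ') := by module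
    rw [e3, e4, norm_smul, norm_smul, Real.norm_of_nonneg hl₁.le, Real.norm_of_nonneg hl₂.le] at h4
    rw [add_mul]
    exact h4
  have hPd : P (T - T') = (l₁ + l₂) • (ξ - ξ') := by
    rw [map_sub, hP, hP', smul_sub]
  have hpy := C.H.pyth (T - T')
  have hnP : ‖P (T - T')‖ = (l₁ + l₂) * ‖ξ - ξ'‖ := by
    rw [hPd, norm_smul, Real.norm_of_nonneg (by positivity)]
  have hle2 : ‖T - T'‖ ^ p ≤ ‖P (T - T')‖ ^ p := by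
    rw [hnP]
    exact Real.rpow_le_rpow (norm_nonneg _) hle hp0.le
  have h0 : ‖T - T' - P (T - T')‖ ^ p = 0 := by
    have : 0 ≤ ‖T - T' - P (T - T')‖ ^ p := by positivity
    linarith
  have h1 : ‖T - T' - P (T - T')‖ = 0 := by
    rwa [Real.rpow_eq_zero (norm_nonneg _) hp0.ne'] at h0
  have h2 := norm_eq_zero.1 h1
  rw [hPd] at h2
  have e : T - (l₁ + l₂) • ξ - (T' - (l₁ + l₂) • ξ') = T - T' - (l₁ + l₂) • (ξ - ξ') := by module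
  exact sub_eq_zero.1 (e.trans h2)

/-- The output of a pair, for `ξ` and `- ξ`. -/
theorem exists_out {ξ : X} (hξ : P ξ = ξ) (hξ1 : ‖ξ‖ = 1) :
    ∃ t : X, P t = 0 ∧ (l₁ + l₂) ^ p + ‖t‖ ^ p = 1 ∧
      f ((l₁ + l₂) • ξ + t) = f (l₁ • ξ + w₁) + f (l₂ • ξ + w₂) ∧
      f ((l₁ + l₂) • (-ξ) + t) = f (l₁ • (-ξ) + w₁) + f (l₂ • (-ξ) + w₂) := by
  have hnξ : P (-ξ) = -ξ := by rw [map_neg, hξ]
  have hnξ1 : ‖-ξ‖ = 1 := by rwa [norm_neg]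
  obtain ⟨hx, hy, hs⟩ := C.out_facts hl₁ hl₂ hw₁ hw₂ h₁ h₂ h₃ hξ hξ1
  obtain ⟨hx', hy', hs'⟩ := C.out_facts hl₁ hl₂ hw₁ hw₂ h₁ h₂ h₃ hnξ hnξ1
  have hP := C.out_part hl₁ hl₂ hw₁ hw₂ h₁ h₂ h₃ hξ hξ1
  have hind := C.out_indep hl₁ hl₂ hw₁ hw₂ h₁ h₂ h₃ hξ hξ1 hnξ hnξ1
  set T := g (f (l₁ • ξ + w₁) + f (l₂ • ξ + w₂)) with hT
  set T' := g (f (l₁ • (-ξ) + w₁) + f (l₂ • (-ξ) + w₂)) with hT'
  have hTn : ‖T‖ = 1 := C.hg.norm_eq _ hs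
  refine ⟨T - (l₁ + l₂) • ξ, ?_, ?_, ?_, ?_⟩
  · rw [map_sub, hP, map_smul, hξ, sub_self]
  · have h := C.H.pyth T
    rw [hTn, Real.one_rpow, hP, norm_smul, hξ1, mul_one,
      Real.norm_of_nonneg (by positivity)] at h
    rw [h, add_comm]
  · have e : (l₁ + l₂) • ξ + (T - (l₁ + l₂) • ξ) = T := by abel
    rw [e, hT]
    exact C.hfg _ hs
  · have e : (l₁ + l₂) • (-ξ) + (T - (l₁ + l₂) • ξ) = T' := by
      rw [hind]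
      abel
    rw [e, hT']
    exact C.hfg _ hs'

end

end Ctx

end Vale.Agent.Lib.P084.LpGen
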