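/-
Tingley's problem for `Z ⊕_p W`: the norming functional of `f ξ` on all levels, and the splitting of `f`.
-/
import Vale.Agent.Lib.P084.LpGen.Out

set_option linter.unusedSectionVars false

namespace Vale.Agent.Lib.P084.LpGen

open Vale.Agent.Lib.P084.UC Vale.Agent.Lib.P084.Inf
open Vale.Agent.Lib.P084.LpSum (IsLpSummand)
open Metric

variable {X Y : Type*} [NormedAddCommGroup X] [NormedSpace ℝ X] [NormedAddCommGroup Y]
  [NormedSpace ℝ Y]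

variable {p : ℝ} {P : X →L[ℝ] X} {f : X → Y} {g : Y → X}

/-- The claim at level `l`. -/
def Good (p : ℝ) (P : X →L[ℝ] X) (f : X → Y) (ξ : X) (φ : Y →L[ℝ] ℝ) (l : ℝ) : Prop :=
  ∀ w : X, P w = 0 → l ^ p + ‖w‖ ^ p = 1 → φ (f (l • ξ + w) - f (l • (-ξ) + w)) = 2 * l

theorem exists_rho {p l : ℝ} (hp0 : 0 < p) (h0 : 0 ≤ l) (h1 : l ≤ 1) :
    ∃ ρ : ℝ, 0 ≤ ρ ∧ ρ ^ p = 1 - l ^ p := by
  have h2 : l ^ p ≤ 1 := Real.rpow_le_one h0 h1 hp0.le
  refine ⟨(1 - l ^ p) ^ (p⁻¹), by apply Real.rpow_nonneg; linarith, ?_⟩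
  exact Real.rpow_inv_rpow (by linarith) hp0.ne'

theorem mem_Fix_compl {w : X} (hw : P w = 0) : w ∈ Fix (1 - P) := by
  rw [mem_Fix]
  simp [hw]

namespace Ctx

variable (C : Ctx p P f g) {ξ : X} {φ : Y →L[ℝ] ℝ}
include C

theorem G_le (hξ : P ξ = ξ) (hξ1 : ‖ξ‖ = 1) (hφ : ‖φ‖ ≤ 1) {l : ℝ} {w : X} (hl : 0 < l)
    (hw : P w = 0) (h : l ^ p + ‖w‖ ^ p = 1) : φ (f (l • ξ + w) - f (l • (-ξ) + w)) ≤ 2 * l := by
  have hx := norm_unit C.H C.hp0 hl.le hξ hξ1 hw h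
  have hy := norm_unit C.H C.hp0 hl.le (ξ := -ξ) (by rw [map_neg, hξ]) (by rwa [norm_neg]) hw h
  have h1 : φ (f (l • ξ + w) - f (l • (-ξ) + w)) ≤ ‖f (l • ξ + w) - f (l • (-ξ) + w)‖ := by
    have h2 := φ.le_opNorm (f (l • ξ + w) - f (l • (-ξ) + w))
    have h3 := le_abs_self (φ (f (l • ξ + w) - f (l • (-ξ) + w)))
    rw [Real.norm_eq_abs] at h2
    have h4 : ‖φ‖ * ‖f (l • ξ + w) - f (l • (-ξ) + w)‖ ≤ 1 * ‖f (l • ξ + w) - f (l • (-ξ) + w)‖ :=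
      mul_le_mul_of_nonneg_right hφ (norm_nonneg _)
    linarith
  refine h1.trans (le_of_eq ?_)
  rw [C.hf.iso _ _ hx hy]
  have e : l • ξ + w - (l • (-ξ) + w) = (2 * l) • ξ := by module
  rw [e, norm_smul, hξ1, mul_one, Real.norm_of_nonneg (by positivity)]

/-- Down step. -/
theorem good_down (hξ : P ξ = ξ) (hξ1 : ‖ξ‖ = 1) (hφ : ‖φ‖ ≤ 1) {l₁ l₂ : ℝ} (hl₁ : 0 < l₁)
    (hl₂ : 0 < l₂) (hg : Good p P f ξ φ (l₁ + l₂)) {w₁ w₂ : X} (hw₁ : P w₁ = 0) (hw₂ : P w₂ = 0)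
    (h₁ : l₁ ^ p + ‖w₁‖ ^ p = 1) (h₂ : l₂ ^ p + ‖w₂‖ ^ p = 1)
    (h₃ : (l₁ + l₂) ^ p + ‖w₁ + w₂‖ ^ p = 1) :
    φ (f (l₁ • ξ + w₁) - f (l₁ • (-ξ) + w₁)) = 2 * l₁ := by
  obtain ⟨t, ht0, ht1, ht2, ht3⟩ := C.exists_out hl₁ hl₂ hw₁ hw₂ h₁ h₂ h₃ hξ hξ1
  have h4 := hg t ht0 ht1
  rw [ht2, ht3] at h4
  have e : f (l₁ • ξ + w₁) + f (l₂ • ξ + w₂) - (f (l₁ • (-ξ) + w₁) + f (l₂ • (-ξ) + w₂)) =
      (f (l₁ • ξ + w₁) - f (l₁ • (-ξ) + w₁)) + (f (l₂ • ξ + w₂) - f (l₂ • (-ξ) + w₂)) := by abel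
  rw [e, map_add] at h4
  have h5 := C.G_le hξ hξ1 hφ hl₁ hw₁ h₁
  have h6 := C.G_le hξ hξ1 hφ hl₂ hw₂ h₂
  linarith

/-- Up step. -/
theorem good_up (hξ : P ξ = ξ) (hξ1 : ‖ξ‖ = 1) {l : ℝ} (hl : 0 < l)
    (hg : Good p P f ξ φ l)
    (hpart : ∀ t : X, P t = 0 → (l + l) ^ p + ‖t‖ ^ p = 1 →
      ∃ w₂ : X, P w₂ = 0 ∧ l ^ p + ‖w₂‖ ^ p = 1 ∧ ‖t - w₂‖ = ‖w₂‖) :
    Good p P f ξ φ (l + l) := by
  intro t ht0 ht1
  obtain ⟨w₂, hw₂, hw₂1, hw₂2⟩ := hpart t ht0 ht1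
  have hT := norm_unit C.H C.hp0 (by positivity) hξ hξ1 ht0 ht1
  have hy := norm_unit C.H C.hp0 hl.le hξ hξ1 hw₂ hw₂1
  set T := (l + l) • ξ + t with hTdef
  set y := l • ξ + w₂ with hydef
  have hTy : ‖T - y‖ = 1 := by
    have e : T - y = l • ξ + (t - w₂) := by rw [hTdef, hydef]; module
    rw [e]
    exact norm_unit C.H C.hp0 hl.le hξ hξ1 (by rw [map_sub, ht0, hw₂, sub_self])
      (by rw [hw₂2]; exact hw₂1)
  have hs : ‖f T - f y‖ = 1 := by rw [C.hf.iso _ _ hT hy]; exact hTy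
  set x := g (f T - f y) with hxdef
  have hx : ‖x‖ = 1 := C.hg.norm_eq _ hs
  have hfx : f x = f T - f y := C.hfg _ hs
  have hfT : f T = f x + f y := by rw [hfx]; abel
  have hPT : P T = (2 : ℝ) • P y := by
    rw [hTdef, hydef, map_add, map_add, map_smul, map_smul, hξ, ht0, hw₂, add_zero, add_zero,
      smul_smul, ← two_mul]
  have hPx : P x = P y := C.part_eq_of_double hx hy hT hfT hPT
  have hPy : P y = l • ξ := by rw [hydef, map_add, map_smul, hξ, hw₂, add_zero]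
  set w₁ := x - l • ξ with hw₁def
  have hxe : l • ξ + w₁ = x := by rw [hw₁def]; abel
  have hw₁ : P w₁ = 0 := by
    rw [hw₁def, map_sub, hPx, hPy, map_smul, hξ, sub_self]
  have hw₁1 : l ^ p + ‖w₁‖ ^ p = 1 := by
    have h := pyth2 C.H (z := l • ξ) (w := w₁) (by rw [map_smul, hξ]) hw₁
    rw [hxe, hx, Real.one_rpow, norm_smul, hξ1, mul_one, Real.norm_of_nonneg hl.le] at h
    linarith
  have h₃ : (l + l) ^ p + ‖w₁ + w₂‖ ^ p = 1 := by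
    have h1 : ‖x + y‖ = 1 := by
      rw [← C.norm_fadd hx hy, ← hfT]
      exact C.hf.norm_eq _ hT
    have e : x + y = (l + l) • ξ + (w₁ + w₂) := by
      rw [← hxe, hydef]; module
    have h := pyth2 C.H (z := (l + l) • ξ) (w := w₁ + w₂) (by rw [map_smul, hξ])
      (by rw [map_add, hw₁, hw₂, add_zero])
    rw [← e, h1, Real.one_rpow, norm_smul, hξ1, mul_one, Real.norm_of_nonneg (by positivity)] at h
    linarith
  obtain ⟨t', ht'0, ht'1, ht'2, ht'3⟩ := C.exists_out hl hl hw₁ hw₂ hw₁1 hw₂1 h₃ hξ hξ1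
  have hT' : ‖(l + l) • ξ + t'‖ = 1 := norm_unit C.H C.hp0 (by positivity) hξ hξ1 ht'0 ht'1
  have hfeq : f ((l + l) • ξ + t') = f T := by
    rw [ht'2, hxe, hfT]
  have hTeq : (l + l) • ξ + t' = T := by
    rw [← C.hgf _ hT', hfeq, C.hgf _ hT]
  have htt : t' = t := by
    rw [hTdef] at hTeq
    exact add_left_cancel hTeq
  subst htt
  rw [hTdef] at hfT
  have h1 := hg w₁ hw₁ hw₁1
  have h2 := hg w₂ hw₂ hw₂1
  rw [ht'2, ht'3]
  have e : f (l • ξ + w₁) + f (l • ξ + w₂) - (f (l • (-ξ) + w₁) + f (l • (-ξ) + w₂)) =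
      (f (l • ξ + w₁) - f (l • (-ξ) + w₁)) + (f (l • ξ + w₂) - f (l • (-ξ) + w₂)) := by abel
  rw [e, map_add, h1, h2]
  ring

/-- The claim at all levels. -/
theorem good_all (hW : 1 < Module.rank ℝ (Fix (1 - P))) (hξ : P ξ = ξ) (hξ1 : ‖ξ‖ = 1)
    (hφ : ‖φ‖ ≤ 1) (hφ1 : φ (f ξ) = 1) {l : ℝ} (hl : 0 < l) : Good p P f ξ φ l := by
  have hp0 := C.hp0
  have hp1 := C.hp
  -- level one
  have h1 : Good p P f ξ φ 1 := by
    intro w _ h
    rw [Real.one_rpow] at h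
    have h2 : ‖w‖ ^ p = 0 := by linarith
    have h3 : w = 0 := norm_eq_zero.1 ((Real.rpow_eq_zero (norm_nonneg _) hp0.ne').1 h2)
    subst h3
    rw [one_smul, one_smul, add_zero, add_zero, C.hodd hξ1, sub_neg_eq_add, map_add, hφ1]
    norm_num
  -- level one half
  have h12 : Good p P f ξ φ (1 / 2) := by
    intro w hw h
    refine C.good_down hξ hξ1 hφ (l₂ := 1 / 2) (by norm_num) (by norm_num) (by norm_num; exact h1)
      hw (w₂ := -w) (by rw [map_neg, hw, neg_zero]) h (by rw [norm_neg]; exact h) ?_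
    rw [add_neg_cancel, norm_zero, Real.zero_rpow hp0.ne']
    norm_num
  -- numbers
  obtain ⟨τ, hτ0, hτ⟩ := exists_rho (l := 1 / 2) hp0 (by norm_num) (by norm_num)
  have hhalf : ((1 : ℝ) / 2) ^ p ≤ 1 / 2 := by
    have := Real.rpow_le_rpow_of_exponent_ge (by norm_num : (0 : ℝ) < 1 / 2)
      (by norm_num : (1 : ℝ) / 2 ≤ 1) hp1.le
    simpa using this
  have hτ12 : 1 / 2 ≤ τ := by
    have h3 : ((1 : ℝ) / 2) ^ p ≤ τ ^ p := by rw [hτ]; linarith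
    exact (Real.rpow_le_rpow_iff (by norm_num) hτ0 hp0).1 h3
  -- small levels
  have hsmall : ∀ l : ℝ, 0 < l → l < 1 / 2 → Good p P f ξ φ l := by
    intro l hl0 hl1 w hw h
    have hlp : l ^ p ≤ ((1 : ℝ) / 2) ^ p := Real.rpow_le_rpow hl0.le hl1.le hp0.le
    obtain ⟨ρ, hρ0, hρ⟩ := exists_rho (l := 1 / 2 - l) hp0 (by linarith) (by linarith)
    have hlp2 : (1 / 2 - l) ^ p ≤ ((1 : ℝ) / 2) ^ p :=
      Real.rpow_le_rpow (by linarith) (by linarith) hp0.le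
    have hwτ : τ ≤ ‖w‖ := by
      have h3 : τ ^ p ≤ ‖w‖ ^ p := by rw [hτ]; linarith
      exact (Real.rpow_le_rpow_iff hτ0 (norm_nonneg _) hp0).1 h3
    have hρτ : τ ≤ ρ := by
      have h3 : τ ^ p ≤ ρ ^ p := by rw [hτ, hρ]; linarith
      exact (Real.rpow_le_rpow_iff hτ0 hρ0 hp0).1 h3
    have hw1 : ‖w‖ ≤ 1 := by
      have h3 : ‖w‖ ^ p ≤ (1 : ℝ) ^ p := by
        rw [Real.one_rpow]
        have : 0 ≤ l ^ p := by positivity
        linarith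
      exact (Real.rpow_le_rpow_iff (norm_nonneg _) zero_le_one hp0).1 h3
    have hρ1 : ρ ≤ 1 := by
      have h3 : ρ ^ p ≤ (1 : ℝ) ^ p := by
        rw [Real.one_rpow, hρ]
        have : 0 ≤ (1 / 2 - l) ^ p := Real.rpow_nonneg (by linarith) _
        linarith
      exact (Real.rpow_le_rpow_iff hρ0 zero_le_one hp0).1 h3
    obtain ⟨w₂, hw₂S, hw₂1, hw₂2⟩ := exists_partner (Fix (1 - P)) hW (mem_Fix_compl hw)
      (by linarith) (ρ := ρ) (τ := τ) hρ0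
      (by rw [abs_le]; constructor <;> linarith) (by linarith)
    have hw₂0 : P w₂ = 0 := by
      have h3 := mem_Fix.1 hw₂S
      simpa using h3
    refine C.good_down hξ hξ1 hφ (l₂ := 1 / 2 - l) hl0 (by linarith) ?_ hw hw₂0 h ?_ ?_
    · have e : l + (1 / 2 - l) = 1 / 2 := by ring
      rw [e]; exact h12
    · rw [hw₂1, hρ]; ring
    · have e : l + (1 / 2 - l) = 1 / 2 := by ring
      rw [e, hw₂2, hτ]; ring
  -- all levels
  rcases lt_trichotomy l (1 / 2) with h3 | h3 | h3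
  · exact hsmall l hl h3
  · rw [h3]; exact h12
  rcases lt_trichotomy l 1 with h4 | h4 | h4
  · have e : l = l / 2 + l / 2 := by ring
    rw [e]
    refine C.good_up hξ hξ1 (by positivity) (hsmall _ (by positivity) (by linarith)) ?_
    intro t ht h
    have ee : l / 2 + l / 2 = l := by ring
    rw [ee] at h
    obtain ⟨ρ, hρ0, hρ⟩ := exists_rho (l := l / 2) hp0 (by positivity) (by linarith)
    have hlp : (l / 2) ^ p ≤ l ^ p := Real.rpow_le_rpow (by positivity) (by linarith) hp0.le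
    have hlp1 : l ^ p < 1 := Real.rpow_lt_one hl.le h4 hp0
    have htρ : ‖t‖ ≤ ρ := by
      have h5 : ‖t‖ ^ p ≤ ρ ^ p := by rw [hρ]; linarith
      exact (Real.rpow_le_rpow_iff (norm_nonneg _) hρ0 hp0).1 h5
    have ht0 : 0 < ‖t‖ := by
      rcases (norm_nonneg t).lt_or_eq with h5 | h5
      · exact h5
      · rw [← h5, Real.zero_rpow hp0.ne'] at h
        linarith
    obtain ⟨w₂, hw₂S, hw₂1, hw₂2⟩ := exists_partner (Fix (1 - P)) hW (w₁ := -t)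
      (mem_Fix_compl (by rw [map_neg, ht, neg_zero])) (by rwa [norm_neg]) (ρ := ρ) (τ := ρ) hρ0
      (by rw [norm_neg, abs_le]; constructor <;> linarith) (by rw [norm_neg]; linarith)
    have hw₂0 : P w₂ = 0 := by
      have h5 := mem_Fix.1 hw₂S
      simpa using h5
    refine ⟨w₂, hw₂0, ?_, ?_⟩
    · rw [hw₂1, hρ]; ring
    · rw [hw₂1, ← hw₂2, ← norm_neg]
      congr 1
      abel
  · rw [h4]; exact h1
  · intro w _ h
    exfalso
    have h5 : 1 < l ^ p := Real.one_lt_rpow h4 hp0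
    have h6 : 0 ≤ ‖w‖ ^ p := by positivity
    linarith

end Ctx

end Vale.Agent.Lib.P084.LpGen
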