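/-
Tingley's problem for `Z ⊕_p W`, `1 < p < ∞`, `Z`, `W` arbitrary normed spaces of dimension at least two:
the splitting of `f` and the linear extension.
-/
import Vale.Agent.Lib.P084.LpGen.Levels
import Vale.Agent.Lib.P084.LpGen.Final

set_option linter.unusedSectionVars false

namespace Vale.Agent.Lib.P084.LpGen

open Vale.Agent.Lib.P084.UC Vale.Agent.Lib.P084.Inf
open Vale.Agent.Lib.P084.LpSum (IsLpSummand)
open Metric

variable {X Y : Type*} [NormedAddCommGroup X] [NormedSpace ℝ X] [NormedAddCommGroup Y]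
  [NormedSpace ℝ Y]

variable {p : ℝ} {P : X →L[ℝ] X} {f : X → Y} {g : Y → X}

namespace Ctx

variable (C : Ctx p P f g)
include C

/-- The chord of `f` in the first part, at every level, is a multiple of `f ξ`. -/
theorem half (hW : 1 < Module.rank ℝ (Fix (1 - P))) {ξ : X} (hξ : P ξ = ξ) (hξ1 : ‖ξ‖ = 1) {l : ℝ}
    {w : X} (hl : 0 < l) (hw : P w = 0) (h : l ^ p + ‖w‖ ^ p = 1) :
    f (l • ξ + w) - f (l • (-ξ) + w) = (2 * l) • f ξ := by
  have h2l : (0 : ℝ) < 2 * l := by positivity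
  have hne : (2 * l)⁻¹ * (2 * l) = 1 := inv_mul_cancel₀ h2l.ne'
  set c : X → Y := fun a => (2 * l)⁻¹ • (f (l • a + w) - f (l • (-a) + w)) with hc
  -- the basic facts at a unit vector of the first part
  have hx : ∀ a : X, a ∈ Fix P → ‖a‖ = 1 → ‖l • a + w‖ = 1 := fun a ha ha1 =>
    norm_unit C.H C.hp0 hl.le (mem_Fix.1 ha) ha1 hw h
  have hy : ∀ a : X, a ∈ Fix P → ‖a‖ = 1 → ‖l • (-a) + w‖ = 1 := fun a ha ha1 =>
    norm_unit C.H C.hp0 hl.le (ξ := -a) (by rw [map_neg, mem_Fix.1 ha]) (by rwa [norm_neg]) hw h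
  have hc1 : ∀ a : X, a ∈ Fix P → ‖a‖ = 1 → ‖c a‖ = 1 := by
    intro a ha ha1
    show ‖(2 * l)⁻¹ • (f (l • a + w) - f (l • (-a) + w))‖ = 1
    rw [norm_smul, C.hf.iso _ _ (hx a ha ha1) (hy a ha ha1)]
    have e : l • a + w - (l • (-a) + w) = (2 * l) • a := by module
    rw [e, norm_smul, ha1, mul_one, Real.norm_of_nonneg h2l.le,
      Real.norm_of_nonneg (by positivity), hne]
  set Ξ : X → X := fun a => g (c a) with hΞ
  have hΞ1 : ∀ a : X, a ∈ Fix P → ‖a‖ = 1 → ‖Ξ a‖ = 1 := fun a ha ha1 =>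
    C.hg.norm_eq _ (hc1 a ha ha1)
  have hfΞ : ∀ a : X, a ∈ Fix P → ‖a‖ = 1 → f (Ξ a) = c a := fun a ha ha1 =>
    C.hfg _ (hc1 a ha ha1)
  have hcof : ∀ a : X, a ∈ Fix P → ‖a‖ = 1 → ‖a + Ξ a‖ = 2 := by
    intro a ha ha1
    rw [← C.norm_fadd ha1 (hΞ1 a ha ha1), hfΞ a ha ha1]
    have hfa : f a ≠ 0 := by
      intro h0
      have := C.hf.norm_eq a ha1
      rw [h0, norm_zero] at this
      exact zero_ne_one this
    obtain ⟨φ, hφ1, hφ2⟩ := exists_dual_vector ℝ (f a) (norm_ne_zero_iff.2 hfa)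
    have hφ3 : φ (f a) = 1 := by
      rw [hφ2, C.hf.norm_eq a ha1]
      simp
    have hgood := C.good_all (φ := φ) hW (mem_Fix.1 ha) ha1 hφ1.le hφ3 hl w hw h
    have hφc : φ (c a) = 1 := by
      show φ ((2 * l)⁻¹ • (f (l • a + w) - f (l • (-a) + w))) = 1
      rw [map_smul, hgood, smul_eq_mul, hne]
    apply le_antisymm
    · have := norm_add_le (f a) (c a)
      rw [C.hf.norm_eq a ha1, hc1 a ha ha1] at this
      linarith
    · have h3 := φ.le_opNorm (f a + c a)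
      rw [hφ1, one_mul, map_add, hφ3, hφc, Real.norm_eq_abs] at h3
      have h4 := le_abs_self ((1 : ℝ) + 1)
      linarith
  have hmem : ∀ a : X, a ∈ Fix P → ‖a‖ = 1 → Ξ a ∈ Fix P := by
    intro a ha ha1
    have hs := split C.H C.hp (v := Ξ a) (v' := a) (by rw [hΞ1 a ha ha1, ha1])
      (by rw [add_comm, hcof a ha ha1, hΞ1 a ha ha1]; norm_num)
    have h4 : ‖P (Ξ a)‖ = 1 := by rw [hs.1, mem_Fix.1 ha, ha1]
    have h5 := C.H.pyth (Ξ a)
    rw [hΞ1 a ha ha1, h4, Real.one_rpow] at h5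
    have h6 : ‖Ξ a - P (Ξ a)‖ ^ p = 0 := by linarith
    have h7 := (Real.rpow_eq_zero (norm_nonneg _) C.hp0.ne').1 h6
    exact (sub_eq_zero.1 (norm_eq_zero.1 h7)).symm
  have hnon : ∀ a : X, a ∈ Fix P → ∀ b : X, b ∈ Fix P → ‖a‖ = 1 → ‖b‖ = 1 →
      ‖Ξ a - Ξ b‖ ≤ ‖a - b‖ := by
    intro a ha b hb ha1 hb1
    show ‖g (c a) - g (c b)‖ ≤ _
    rw [C.hg.iso _ _ (hc1 a ha ha1) (hc1 b hb hb1)]
    have e : c a - c b = (2 * l)⁻¹ • ((f (l • a + w) - f (l • b + w)) -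
        (f (l • (-a) + w) - f (l • (-b) + w))) := by
      show (2 * l)⁻¹ • (f (l • a + w) - f (l • (-a) + w)) -
        (2 * l)⁻¹ • (f (l • b + w) - f (l • (-b) + w)) = _
      rw [← smul_sub]
      congr 1
      abel
    rw [e, norm_smul, Real.norm_of_nonneg (by positivity)]
    have h3 := norm_sub_le (f (l • a + w) - f (l • b + w)) (f (l • (-a) + w) - f (l • (-b) + w))
    rw [C.hf.iso _ _ (hx a ha ha1) (hx b hb hb1), C.hf.iso _ _ (hy a ha ha1) (hy b hb hb1)] at h3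
    have e1 : l • a + w - (l • b + w) = l • (a - b) := by module
    have e2 : l • (-a) + w - (l • (-b) + w) = l • (b - a) := by module
    rw [e1, e2, norm_smul, norm_smul, norm_sub_rev b a, Real.norm_of_nonneg hl.le] at h3
    have h4 : (2 * l)⁻¹ * ‖f (l • a + w) - f (l • b + w) - (f (l • (-a) + w) - f (l • (-b) + w))‖ ≤
        (2 * l)⁻¹ * (l * ‖a - b‖ + l * ‖a - b‖) :=
      mul_le_mul_of_nonneg_left h3 (by positivity)
    refine h4.trans (le_of_eq ?_)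
    have e3 : l * ‖a - b‖ + l * ‖a - b‖ = (2 * l) * ‖a - b‖ := by ring
    rw [e3, ← mul_assoc, hne, one_mul]
  have hkey := eq_of_cofacial_on (Fix P) hmem hΞ1 hnon hcof (y := ξ) (mem_Fix.2 hξ) hξ1
  have h3 : c ξ = f ξ := by
    rw [← hfΞ ξ (mem_Fix.2 hξ) hξ1, hkey]
  have h4 : (2 * l) • c ξ = f (l • ξ + w) - f (l • (-ξ) + w) := by
    show (2 * l) • ((2 * l)⁻¹ • (f (l • ξ + w) - f (l • (-ξ) + w))) = _
    rw [smul_smul, mul_inv_cancel₀ h2l.ne', one_smul]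
  rw [← h4, h3]

/-- The splitting of `f`. -/
theorem split_f (hW : 1 < Module.rank ℝ (Fix (1 - P))) (hZ : 1 < Module.rank ℝ (Fix P)) {x : X}
    (hx : ‖x‖ = 1) : f x = LSum.rad f (P x) + LSum.rad f (x - P x) := by
  have hp0 := C.hp0
  have hQ : P (x - P x) = 0 := by rw [map_sub, C.H.idem, sub_self]
  rcases eq_or_ne (P x) 0 with h0 | h0
  · rw [h0, sub_zero, LSum.rad_zero, zero_add, LSum.rad_unit hx]
  rcases eq_or_ne (x - P x) 0 with h1 | h1
  · have e : P x = x := (sub_eq_zero.1 h1).symm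
    rw [h1, e, LSum.rad_zero, add_zero, LSum.rad_unit hx]
  have hl : 0 < ‖P x‖ := norm_pos_iff.2 h0
  have hm : 0 < ‖x - P x‖ := norm_pos_iff.2 h1
  set l := ‖P x‖ with hldef
  set m := ‖x - P x‖ with hmdef
  set ξ := l⁻¹ • P x with hξdef
  set e := m⁻¹ • (x - P x) with hedef
  have hξ : P ξ = ξ := by rw [hξdef, map_smul, C.H.idem]
  have he : P e = 0 := by rw [hedef, map_smul, hQ, smul_zero]
  have hξ1 : ‖ξ‖ = 1 := by
    rw [hξdef, norm_smul, ← hldef, norm_inv, Real.norm_of_nonneg hl.le, inv_mul_cancel₀ hl.ne']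
  have he1 : ‖e‖ = 1 := by
    rw [hedef, norm_smul, ← hmdef, norm_inv, Real.norm_of_nonneg hm.le, inv_mul_cancel₀ hm.ne']
  have hlξ : l • ξ = P x := by rw [hξdef, smul_smul, mul_inv_cancel₀ hl.ne', one_smul]
  have hme : m • e = x - P x := by rw [hedef, smul_smul, mul_inv_cancel₀ hm.ne', one_smul]
  have hnorm : l ^ p + m ^ p = 1 := by
    have h2 := C.H.pyth x
    rw [hx, Real.one_rpow, ← hldef, ← hmdef] at h2
    linarith
  have hxe : l • ξ + m • e = x := by rw [hlξ, hme]; abel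
  -- the first chord
  have h3 := C.half hW hξ hξ1 (w := m • e) hl (by rw [map_smul, he, smul_zero])
    (by rw [norm_smul, he1, mul_one, Real.norm_of_nonneg hm.le]; exact hnorm)
  -- the second chord
  have hC' : Ctx p (1 - (1 - P)) f g := C.compl.compl
  have hP2 : (1 - (1 - P)) = P := sub_sub_cancel 1 P
  have hZ' : 1 < Module.rank ℝ (Fix (1 - (1 - P))) := by rw [hP2]; exact hZ
  have he' : (1 - P) e = e := by
    simp [he]
  have hu : (1 - P) (l • (-ξ)) = 0 := by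
    simp [hξ]
  have h4 := C.compl.half hZ' he' he1 (w := l • (-ξ)) hm hu
    (by rw [norm_smul, norm_neg, hξ1, mul_one, Real.norm_of_nonneg hl.le, add_comm]; exact hnorm)
  -- oddness
  have e1 : m • e + l • (-ξ) = l • (-ξ) + m • e := add_comm _ _
  have e2 : m • (-e) + l • (-ξ) = -x := by
    rw [← hxe]
    module
  rw [e1, e2, C.hodd hx, sub_neg_eq_add] at h4
  rw [hxe] at h3
  have h5 : (2 : ℝ) • f x = (2 * l) • f ξ + (2 * m) • f e := by
    rw [← h3, ← h4]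
    module
  have h6 : f x = l • f ξ + m • f e := by
    have h7 : (2 : ℝ) • f x = (2 : ℝ) • (l • f ξ + m • f e) := by
      rw [h5]
      module
    exact smul_right_injective Y (two_ne_zero) h7
  rw [h6]
  rfl

/-- The linear extension. -/
theorem exists_extension (hW : 1 < Module.rank ℝ (Fix (1 - P))) (hZ : 1 < Module.rank ℝ (Fix P))
    {z0 w0 : X} (hz0 : P z0 ≠ 0) (hw0 : P w0 ≠ w0) :
    ∃ T : X ≃ₗᵢ[ℝ] Y, ∀ x, ‖x‖ = 1 → T x = f x :=
  extends_of_split C.H C.hp C.hf (fun _ hx => C.split_f hW hZ hx) hz0 hw0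

end Ctx

end Vale.Agent.Lib.P084.LpGen
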