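/-
Tingley's problem for `X = Z ⊕_p W`, `1 < p < ∞`, `Z`, `W` arbitrary nonzero normed spaces:
every surjective isometry of the unit sphere of `X` onto the unit sphere of any normed space `Y`
extends to a linear isometry of `X` onto `Y`.
-/
import Vale.Agent.Lib.P084.LpGen.Main
import Vale.Agent.Lib.P084.LpSum.Main

set_option linter.unusedSectionVars false

namespace Vale.Agent.Lib.P084.LpGen

open Vale.Agent.Lib.P084.UC Vale.Agent.Lib.P084.Inf
open Vale.Agent.Lib.P084.LpSum (IsLpSummand IsLpLine)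
open Vale.Agent.Lib.P084.RNP (exists_isSphereIso_inv exists_ambient exists_inverse)
open Metric

variable {X Y : Type*} [NormedAddCommGroup X] [NormedSpace ℝ X] [NormedAddCommGroup Y]
  [NormedSpace ℝ Y]

/-- A nonzero vector of a subspace of positive rank. -/
theorem exists_fix_ne {P : X →L[ℝ] X} (h : 1 < Module.rank ℝ (Fix P)) : ∃ v : X, P v = v ∧ v ≠ 0 := by
  have h0 : 0 < Module.rank ℝ (Fix P) := lt_trans zero_lt_one h
  obtain ⟨v, hv⟩ := rank_pos_iff_exists_ne_zero.1 h0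
  exact ⟨v, v.2, fun h1 => hv (Subtype.ext h1)⟩

/-- Both summands of dimension at least two. -/
theorem extends_of_rank {p : ℝ} {P : X →L[ℝ] X} (H : IsLpSummand p P) (hp : 1 < p)
    (hZ : 1 < Module.rank ℝ (Fix P)) (hW : 1 < Module.rank ℝ (Fix (1 - P))) {f : X → Y}
    (hf : IsSphereIso f) : ∃ T : X ≃ₗᵢ[ℝ] Y, ∀ x, ‖x‖ = 1 → T x = f x := by
  obtain ⟨g, hg, hgf, hfg⟩ := exists_isSphereIso_inv hf
  have C : Ctx p P f g := ⟨H, hp, hf, hg, hgf, hfg⟩
  obtain ⟨z0, hz0, hz0'⟩ := exists_fix_ne hZ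
  obtain ⟨w0, hw0, hw0'⟩ := exists_fix_ne hW
  refine C.exists_extension hW hZ (z0 := z0) (w0 := w0) (by rwa [hz0]) ?_
  have h1 : P w0 = 0 := by
    simp only [ContinuousLinearMap.sub_apply, ContinuousLinearMap.one_apply] at hw0
    have h2 : w0 - P w0 = w0 := hw0
    have h3 : P w0 = w0 - (w0 - P w0) := by abel
    rw [h3, h2, sub_self]
  rw [h1]
  exact fun h => hw0' h.symm

/-- A summand of dimension one is an `L_p`-line. -/
theorem isLpLine_of_rank {p : ℝ} {P : X →L[ℝ] X} (H : IsLpSummand p P) (hP0 : P ≠ 0)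
    (hr : Module.rank ℝ (Fix P) ≤ 1) : ∃ (e : X) (l : X →L[ℝ] ℝ), IsLpLine p e l := by
  obtain ⟨z0, hz0⟩ : ∃ z, P z ≠ 0 := by
    by_contra hcon
    push Not at hcon
    exact hP0 (ContinuousLinearMap.ext hcon)
  have hn : 0 < ‖P z0‖ := norm_pos_iff.2 hz0
  set e := ‖P z0‖⁻¹ • P z0 with hedef
  have he : P e = e := by rw [hedef, map_smul, H.idem]
  have he1 : ‖e‖ = 1 := by
    rw [hedef, norm_smul, norm_inv, norm_norm, inv_mul_cancel₀ hn.ne']
  have he0 : e ≠ 0 := by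
    intro h0
    rw [h0, norm_zero] at he1
    exact zero_ne_one he1
  obtain ⟨ψ, hψ1, hψ2⟩ := exists_dual_vector ℝ e (norm_ne_zero_iff.2 he0)
  have hψe : ψ e = 1 := by
    rw [hψ2, he1]
    simp
  obtain ⟨v₀, hv₀⟩ := (rank_le_one_iff (K := ℝ) (V := Fix P)).1 hr
  have hline : ∀ x : X, ψ (P x) • e = P x := by
    intro x
    have hm : P x ∈ Fix P := mem_Fix.2 (H.idem x)
    obtain ⟨r₁, hr₁⟩ := hv₀ ⟨e, mem_Fix.2 he⟩
    obtain ⟨r₂, hr₂⟩ := hv₀ ⟨P x, hm⟩
    have h1 : r₁ • (v₀ : X) = e := congrArg Subtype.val hr₁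
    have h2 : r₂ • (v₀ : X) = P x := congrArg Subtype.val hr₂
    have hr₁0 : r₁ ≠ 0 := by
      intro h0
      rw [h0, zero_smul] at h1
      exact he0 h1.symm
    have h3 : P x = (r₂ / r₁) • e := by
      rw [← h1, smul_smul, ← h2]
      congr 1
      field_simp
    rw [h3, map_smul, hψe, smul_eq_mul, mul_one]
  refine ⟨e, ψ.comp P, he1, ?_, ?_⟩
  · show ψ (P e) = 1
    rw [he, hψe]
  · intro x
    show ‖x‖ ^ p = ‖x - ψ (P x) • e‖ ^ p + |ψ (P x)| ^ p
    rw [hline x, H.pyth x]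
    congr 2
    have h4 := congrArg norm (hline x)
    rw [norm_smul, he1, mul_one, Real.norm_eq_abs] at h4
    exact h4.symm

/-- **Every `ℓ_p`-sum `X = Z ⊕_p W`, `1 < p < ∞`, `Z`, `W` arbitrary nonzero, has the Mazur-Ulam
property** (infinite dimensional case; the finite dimensional case is the theorem on finite
dimensional spaces). -/
theorem extends_of_isLpSummand {p : ℝ} {P : X →L[ℝ] X} (H : IsLpSummand p P) (hp : 1 < p)
    (hP0 : P ≠ 0) (hP1 : P ≠ 1) (hX : ¬ FiniteDimensional ℝ X) {f : X → Y} (hf : IsSphereIso f) :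
    ∃ T : X ≃ₗᵢ[ℝ] Y, ∀ x, ‖x‖ = 1 → T x = f x := by
  by_cases hZ : 1 < Module.rank ℝ (Fix P)
  · by_cases hW : 1 < Module.rank ℝ (Fix (1 - P))
    · exact extends_of_rank H hp hZ hW hf
    · have hP0' : (1 - P) ≠ 0 := fun h => hP1 (sub_eq_zero.1 h).symm
      obtain ⟨e, l, hl⟩ := isLpLine_of_rank (LpGen.compl H) hP0' (not_lt.1 hW)
      exact LpSum.extends_of_isLpLine hl hp hX hf
  · obtain ⟨e, l, hl⟩ := isLpLine_of_rank H hP0 (not_lt.1 hZ)
    exact LpSum.extends_of_isLpLine hl hp hX hf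

/-- Map of the unit spheres, source version. -/
theorem extends_sum_source (f : sphere (0 : X) 1 → sphere (0 : Y) 1) (hf : Isometry f)
    (hs : Function.Surjective f) {p : ℝ} {P : X →L[ℝ] X} (H : IsLpSummand p P) (hp : 1 < p)
    (hP0 : P ≠ 0) (hP1 : P ≠ 1) (hX : ¬ FiniteDimensional ℝ X) :
    ∃ T : X ≃ₗᵢ[ℝ] Y, ∀ x : sphere (0 : X) 1, T x = f x := by
  obtain ⟨g, hg, hgf⟩ := exists_ambient f hf hs
  obtain ⟨T, hT⟩ := extends_of_isLpSummand H hp hP0 hP1 hX hg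
  exact ⟨T, fun x => by rw [hT x (by simpa using x.2), hgf]⟩

/-- Map of the unit spheres, target version. -/
theorem extends_sum_target (f : sphere (0 : X) 1 → sphere (0 : Y) 1) (hf : Isometry f)
    (hs : Function.Surjective f) {p : ℝ} {P : Y →L[ℝ] Y} (H : IsLpSummand p P) (hp : 1 < p)
    (hP0 : P ≠ 0) (hP1 : P ≠ 1) (hY : ¬ FiniteDimensional ℝ Y) :
    ∃ T : X ≃ₗᵢ[ℝ] Y, ∀ x : sphere (0 : X) 1, T x = f x := by
  obtain ⟨h, hh, hhs, htr⟩ := exists_inverse f hf hs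
  exact htr (extends_sum_source h hh hhs H hp hP0 hP1 hY)

end Vale.Agent.Lib.P084.LpGen
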